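import Mathlib

set_option autoImplicit false

/-! Ordered matrix removal: the pattern, the host matrix and rigidity of the frame. -/

namespace Crest.Agent.H8.OM

/-- The pattern. -/
def Hp (i j : Fin 66) : Bool :=
  if i.val < 63 then
    if j.val < 63 then decide (i.val ≠ j.val) else decide (i.val + 63 = j.val)
  else
    if j.val < 63 then decide (j.val + 63 = i.val) else !(decide (i.val = 64) && decide (j.val = 64))

theorem Hp_symm (i j : Fin 66) : Hp i j = Hp j i := by
  unfold Hp
  split_ifs
  · simp [eq_comm]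
  · rfl
  · rfl
  · rw [Bool.and_comm]

theorem Hp_lt {i j : Fin 66} (hi : i.val < 63) (hj : j.val < 63) : Hp i j = true ↔ i ≠ j := by
  unfold Hp
  rw [if_pos hi, if_pos hj, decide_eq_true_iff]
  rw [Ne, Ne, Fin.ext_iff]

theorem Hp_ge {i j : Fin 66} (hi : 63 ≤ i.val) (hij : Hp i j = true) :
    j.val + 63 = i.val ∨ 63 ≤ j.val := by
  unfold Hp at hij
  rw [if_neg (by omega)] at hij
  by_cases hj : j.val < 63
  · rw [if_pos hj, decide_eq_true_iff] at hij
    left; exact hij
  · right; omega

/-- set of columns hit by a row of index `≥ 63` -/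
theorem Hp_card {i : Fin 66} (hi : 63 ≤ i.val) :
    (Finset.univ.filter fun j : Fin 66 => Hp i j = true).card ≤ 4 := by
  have h : (Finset.univ.filter fun j : Fin 66 => Hp i j = true) ⊆
      {⟨i.val - 63, by omega⟩, 63, 64, 65} := by
    intro j hj
    rw [Finset.mem_filter] at hj
    simp only [Finset.mem_insert, Finset.mem_singleton, Fin.ext_iff]
    have h1 : ((63 : Fin 66).val) = 63 := rfl
    have h2 : ((64 : Fin 66).val) = 64 := rfl
    have h3 : ((65 : Fin 66).val) = 65 := rfl
    rw [h1, h2, h3]
    rcases Hp_ge hi hj.2 with h | h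
    · left; omega
    · have := j.isLt
      omega
  refine (Finset.card_le_card h).trans ?_
  exact Finset.card_le_four

theorem Hp_row (i : Fin 66) : ∃ j, Hp i j = true := by
  by_cases hi : i.val < 63
  · by_cases h0 : i.val = 0
    · exact ⟨1, (Hp_lt hi (by decide)).mpr (by rw [Ne, Fin.ext_iff, h0]; decide)⟩
    · exact ⟨0, (Hp_lt hi (by decide)).mpr (by rw [Ne, Fin.ext_iff]; exact h0)⟩
  · refine ⟨63, ?_⟩
    unfold Hp
    rw [if_neg hi, if_neg (by decide)]
    simp

abbrev Kind (h : ℕ) := Option (Fin h × Bool × Bool)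

abbrev P (h : ℕ) := Fin (h + 1) × Fin (2 ^ h)

abbrev Row (h : ℕ) := (Kind h × Fin 66 × Fin (2 ^ h)) ⊕ (P h ⊕ Fin ((121 * h - 65) * 2 ^ h))

def act {h : ℕ} : Kind h → Fin 66 → Bool
  | none, i => decide (i.val ≠ 63)
  | some (_, false, _), i => decide (i.val ≠ 64 ∧ i.val ≠ 65)
  | some (_, true, _), i => decide (i.val ≠ 63 ∧ i.val ≠ 64)

def role {h : ℕ} (s : Bool) : Kind h → ℕ → Option (Fin 66)
  | none, a => if a = h then some 63 else none
  | some (l, b, t), a => if a = l.val then some (if b then 63 else 65)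
      else if a = l.val + 1 ∨ (xor t s = true ∧ l.val < a) then some 64 else none

/-- agreement of the first `t` bits -/
def E (h t X Y : ℕ) : Prop := X / 2 ^ (h - t) = Y / 2 ^ (h - t)

instance (h t X Y : ℕ) : Decidable (E h t X Y) := by unfold E; infer_instance

/-- core row against marker column `(k, j)` -/
def cm {h : ℕ} (s : Bool) (a : ℕ) (k : Kind h) (j : Fin 66) : Bool :=
  act k j && (match role s k a with | some i => Hp i j | none => false)

def Mx {h : ℕ} (s : Bool) : Row h → Row h → Bool
  | .inl (k, i, _), .inl (k', j, _) => decide (k = k') && (act k i && (act k' j && Hp i j))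
  | .inr (.inl (a, _)), .inl (k, j, _) => cm s a.val k j
  | .inl (k, i, _), .inr (.inl (b, _)) => cm (!s) b.val k i
  | .inr (.inl (a, X)), .inr (.inl (b, Y)) => decide (E h (min a.val b.val) X.val Y.val)
  | .inr (.inr _), _ => false
  | _, .inr (.inr _) => false

theorem E.symm {h t X Y : ℕ} (hE : E h t X Y) : E h t Y X := Eq.symm hE

theorem E.trans {h t X Y Z : ℕ} (h1 : E h t X Y) (h2 : E h t Y Z) : E h t X Z := Eq.trans h1 h2

theorem E.mono {h s t X Y : ℕ} (hE : E h t X Y) (hst : s ≤ t) : E h s X Y := by
  unfold E at *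
  have e : h - s = (h - t) + ((h - s) - (h - t)) := by omega
  rw [e, pow_add, ← Nat.div_div_eq_div_mul, ← Nat.div_div_eq_div_mul, hE]

theorem E_comm {h t X Y : ℕ} : E h t X Y ↔ E h t Y X := ⟨E.symm, E.symm⟩

theorem Mx_symm {h : ℕ} (s : Bool) (r c : Row h) : Mx s r c = Mx (!s) c r := by
  rcases r with ⟨k, i, X⟩ | ⟨⟨a, X⟩⟩ | p <;> rcases c with ⟨k', j, Y⟩ | ⟨⟨b, Y⟩⟩ | p' <;>
    simp only [Mx, Bool.not_not]
  · rw [Hp_symm i j]
    by_cases hk : k = k'
    · subst hk
      simp only [decide_true, Bool.true_and]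
      cases act k i <;> cases act k j <;> simp
    · rw [decide_eq_false hk, decide_eq_false (Ne.symm hk)]
      simp
  · rw [min_comm, decide_eq_decide]
    exact E_comm

/-- path lemma -/
theorem path {h a b c d X Y Z W : ℕ} (h1 : E h (min a b) X Y) (h2 : E h (min b c) Y Z)
    (h3 : E h (min c d) Z W) (hab : a ≤ b) (hac : a ≤ c) (had : a ≤ d) : E h (min a d) X W := by
  rw [min_eq_left had]
  rw [min_eq_left hab] at h1
  exact (h1.trans (h2.mono (le_min hab hac))).trans (h3.mono (le_min hac had))

theorem role_mid {h : ℕ} {s : Bool} {k : Kind h} {a b c : ℕ} {i j : Fin 66} (hab : a < b) (hbc : b < c)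
    (ha : role s k a = some i) (hc : role s k c = some j) : role s k b = some j := by
  rcases k with _ | ⟨l, b', t⟩
  · simp only [role] at ha hc
    split_ifs at ha hc
    omega
  · have hla : l.val ≤ a := by
      simp only [role] at ha
      split_ifs at ha <;> omega
    have hx : xor t s = true := by
      simp only [role] at hc
      rw [if_neg (by omega)] at hc
      split_ifs at hc with h2
      rcases h2 with h2 | h2
      · omega
      · exact h2.1
    simp only [role] at hc ⊢
    rw [if_neg (by omega), if_pos (Or.inr ⟨hx, by omega⟩)] at hc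
    rw [if_neg (by omega), if_pos (Or.inr ⟨hx, by omega⟩)]
    exact hc

theorem cm_mid {h : ℕ} {s : Bool} {k : Kind h} {a b c : ℕ} {j : Fin 66} (hab : a < b) (hbc : b < c)
    (ha : cm s a k j = true) (hc : cm s c k j = true) : cm s b k j = true := by
  unfold cm at *
  rw [Bool.and_eq_true] at *
  refine ⟨ha.1, ?_⟩
  have ha2 := ha.2
  have hc2 := hc.2
  cases hra : role s k a with
  | none => rw [hra] at ha2; simp at ha2
  | some i =>
    cases hrc : role s k c with
    | none => rw [hrc] at hc2; simp at hc2
    | some i' =>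
      rw [hrc] at hc2
      rw [role_mid hab hbc hra hrc]
      exact hc2

theorem role_ge {h : ℕ} {s : Bool} {k : Kind h} {a : ℕ} {i : Fin 66} (ha : role s k a = some i) :
    63 ≤ i.val := by
  rcases k with _ | ⟨l, b', t⟩
  · simp only [role] at ha
    split_ifs at ha
    simp only [Option.some.injEq] at ha
    rw [← ha]; decide
  · simp only [role] at ha
    split_ifs at ha <;> simp only [Option.some.injEq] at ha <;> rw [← ha] <;> decide

theorem cm_card {h : ℕ} {s : Bool} (k : Kind h) (a : ℕ) :
    (Finset.univ.filter fun j : Fin 66 => cm s a k j = true).card ≤ 4 := by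
  cases hr : role s k a with
  | none =>
    have : (Finset.univ.filter fun j : Fin 66 => cm s a k j = true) = ∅ := by
      ext j
      simp [cm, hr]
    rw [this]; simp
  | some i =>
    refine le_trans (Finset.card_le_card ?_) (Hp_card (role_ge hr))
    intro j hj
    simp only [Finset.mem_filter, Finset.mem_univ, true_and] at *
    unfold cm at hj
    rw [hr, Bool.and_eq_true] at hj
    exact hj.2

end Crest.Agent.H8.OM
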