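import Mathlib
import Crest.Agent.H8.OM1

set_option autoImplicit false

namespace Crest.Agent.H8.OM

variable {h : ℕ}

structure Cp (s : Bool) (f g : Fin 66 → Row h) : Prop where
  eq : ∀ i j, Mx s (f i) (g j) = Hp i j

theorem Cp.swap {s : Bool} {f g : Fin 66 → Row h} (hc : Cp s f g) : Cp (!s) g f :=
  ⟨fun i j => by rw [← Mx_symm, hc.eq, Hp_symm]⟩

theorem noPad {s : Bool} {f g : Fin 66 → Row h} (hc : Cp s f g) (i : Fin 66) (p) :
    f i ≠ Sum.inr (Sum.inr p) := by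
  intro hf
  obtain ⟨j, hj⟩ := Hp_row i
  have := hc.eq i j
  rw [hf, hj] at this
  simp [Mx] at this

theorem star_aux {a0 a1 a2 b0 b1 b2 X0 X1 X2 Y0 Y1 Y2 : ℕ}
    (h01 : E h (min a0 b1) X0 Y1) (h02 : E h (min a0 b2) X0 Y2) (h10 : E h (min a1 b0) X1 Y0)
    (h12 : E h (min a1 b2) X1 Y2) (h20 : E h (min a2 b0) X2 Y0) (h21 : E h (min a2 b1) X2 Y1)
    (n0 : ¬ E h (min a0 b0) X0 Y0) (n1 : ¬ E h (min a1 b1) X1 Y1) (n2 : ¬ E h (min a2 b2) X2 Y2) :
    False := by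
  have flip : ∀ {a b X Y : ℕ}, E h (min a b) X Y → E h (min b a) Y X := by
    intro a b X Y hE
    rw [min_comm]; exact hE.symm
  have hcases : (a0 ≤ a1 ∧ a0 ≤ a2 ∧ a0 ≤ b0 ∧ a0 ≤ b1 ∧ a0 ≤ b2) ∨
      (a1 ≤ a0 ∧ a1 ≤ a2 ∧ a1 ≤ b0 ∧ a1 ≤ b1 ∧ a1 ≤ b2) ∨
      (a2 ≤ a0 ∧ a2 ≤ a1 ∧ a2 ≤ b0 ∧ a2 ≤ b1 ∧ a2 ≤ b2) ∨
      (b0 ≤ a0 ∧ b0 ≤ a1 ∧ b0 ≤ a2 ∧ b0 ≤ b1 ∧ b0 ≤ b2) ∨
      (b1 ≤ a0 ∧ b1 ≤ a1 ∧ b1 ≤ a2 ∧ b1 ≤ b0 ∧ b1 ≤ b2) ∨
      (b2 ≤ a0 ∧ b2 ≤ a1 ∧ b2 ≤ a2 ∧ b2 ≤ b0 ∧ b2 ≤ b1) := by omega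
  rcases hcases with H | H | H | H | H | H
  · exact n0 (path h01 (flip h21) h20 H.2.2.2.1 H.2.1 H.2.2.1)
  · exact n1 (path h10 (flip h20) h21 H.2.2.1 H.2.1 H.2.2.2.1)
  · exact n2 (path h20 (flip h10) h12 H.2.2.1 H.2.1 H.2.2.2.2)
  · exact n0 (flip (path (flip h10) h12 (flip h02) H.2.1 H.2.2.2.2 H.1))
  · exact n1 (flip (path (flip h01) h02 (flip h12) H.1 H.2.2.2.2 H.2.1))
  · exact n2 (flip (path (flip h02) h01 (flip h21) H.1 H.2.2.2.2 H.2.2.1))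

theorem star {s : Bool} {f g : Fin 66 → Row h} (hc : Cp s f g) {i0 i1 i2 : Fin 66}
    (l0 : i0.val < 63) (l1 : i1.val < 63) (l2 : i2.val < 63)
    (d01 : i0 ≠ i1) (d02 : i0 ≠ i2) (d12 : i1 ≠ i2) {p0 p1 p2 q0 q1 q2 : P h}
    (f0 : f i0 = Sum.inr (Sum.inl p0)) (f1 : f i1 = Sum.inr (Sum.inl p1)) (f2 : f i2 = Sum.inr (Sum.inl p2))
    (g0 : g i0 = Sum.inr (Sum.inl q0)) (g1 : g i1 = Sum.inr (Sum.inl q1)) (g2 : g i2 = Sum.inr (Sum.inl q2)) :
    False := by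
  have tr : ∀ {i j : Fin 66} {p q : P h}, i.val < 63 → j.val < 63 → i ≠ j → f i = Sum.inr (Sum.inl p) →
      g j = Sum.inr (Sum.inl q) → E h (min p.1.val q.1.val) p.2.val q.2.val := by
    intro i j p q hi hj hij hf hg
    have := hc.eq i j
    rw [hf, hg, (Hp_lt hi hj).mpr hij] at this
    exact of_decide_eq_true this
  have fl : ∀ {i : Fin 66} {p q : P h}, i.val < 63 → f i = Sum.inr (Sum.inl p) →
      g i = Sum.inr (Sum.inl q) → ¬ E h (min p.1.val q.1.val) p.2.val q.2.val := by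
    intro i p q hi hf hg hE
    have := hc.eq i i
    rw [hf, hg] at this
    have h2 : Mx s (Sum.inr (Sum.inl p)) (Sum.inr (Sum.inl q)) = true := decide_eq_true hE
    rw [h2] at this
    exact ((Hp_lt hi hi).mp this.symm) rfl
  exact star_aux (tr l0 l1 d01 f0 g1) (tr l0 l2 d02 f0 g2) (tr l1 l0 d01.symm f1 g0)
    (tr l1 l2 d12 f1 g2) (tr l2 l0 d02.symm f2 g0) (tr l2 l1 d12.symm f2 g1)
    (fl l0 f0 g0) (fl l1 f1 g1) (fl l2 f2 g2)

theorem thr_aux {s : Bool} {a b c : ℕ} {k0 k1 k2 : Kind h} {j0 j1 j2 : Fin 66}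
    (h01 : cm s a k1 j1 = true) (h02 : cm s a k2 j2 = true)
    (h10 : cm s b k0 j0 = true) (h12 : cm s b k2 j2 = true)
    (h20 : cm s c k0 j0 = true) (h21 : cm s c k1 j1 = true)
    (n0 : cm s a k0 j0 = false) (n1 : cm s b k1 j1 = false) (n2 : cm s c k2 j2 = false) : False := by
  have dab : a ≠ b := by rintro rfl; rw [n0] at h10; exact absurd h10 (by simp)
  have dac : a ≠ c := by rintro rfl; rw [n0] at h20; exact absurd h20 (by simp)
  have dbc : b ≠ c := by rintro rfl; rw [n1] at h21; exact absurd h21 (by simp)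
  have hcases : (a < b ∧ b < c) ∨ (c < b ∧ b < a) ∨ (b < a ∧ a < c) ∨ (c < a ∧ a < b) ∨
      (a < c ∧ c < b) ∨ (b < c ∧ c < a) := by omega
  rcases hcases with H | H | H | H | H | H
  · rw [cm_mid H.1 H.2 h01 h21] at n1; exact absurd n1 (by simp)
  · rw [cm_mid H.1 H.2 h21 h01] at n1; exact absurd n1 (by simp)
  · rw [cm_mid H.1 H.2 h10 h20] at n0; exact absurd n0 (by simp)
  · rw [cm_mid H.1 H.2 h20 h10] at n0; exact absurd n0 (by simp)
  · rw [cm_mid H.1 H.2 h02 h12] at n2; exact absurd n2 (by simp)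
  · rw [cm_mid H.1 H.2 h12 h02] at n2; exact absurd n2 (by simp)

def isCore : Row h → Bool
  | .inr (.inl _) => true
  | _ => false

theorem isCore_iff {r : Row h} : isCore r = true ↔ ∃ p, r = Sum.inr (Sum.inl p) := by
  rcases r with r | r | r <;> simp [isCore]

theorem not_core {s : Bool} {f g : Fin 66 → Row h} (hc : Cp s f g) {i : Fin 66} (hi : isCore (f i) = false) :
    ∃ k j X, f i = Sum.inl (k, j, X) := by
  rcases hr : f i with ⟨k, j, X⟩ | p | p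
  · exact ⟨k, j, X, rfl⟩
  · rw [hr] at hi; simp [isCore] at hi
  · exact absurd hr (noPad hc i p)

theorem thr {s : Bool} {f g : Fin 66 → Row h} (hc : Cp s f g) {i0 i1 i2 : Fin 66}
    (l0 : i0.val < 63) (l1 : i1.val < 63) (l2 : i2.val < 63)
    (d01 : i0 ≠ i1) (d02 : i0 ≠ i2) (d12 : i1 ≠ i2)
    (f0 : isCore (f i0) = true) (f1 : isCore (f i1) = true) (f2 : isCore (f i2) = true)
    (g0 : isCore (g i0) = false) (g1 : isCore (g i1) = false) (g2 : isCore (g i2) = false) :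
    False := by
  obtain ⟨p0, f0⟩ := isCore_iff.mp f0
  obtain ⟨p1, f1⟩ := isCore_iff.mp f1
  obtain ⟨p2, f2⟩ := isCore_iff.mp f2
  obtain ⟨k0, j0, X0, g0⟩ := not_core hc.swap g0
  obtain ⟨k1, j1, X1, g1⟩ := not_core hc.swap g1
  obtain ⟨k2, j2, X2, g2⟩ := not_core hc.swap g2
  have tr : ∀ {i j : Fin 66} {p : P h} {k : Kind h} {t : Fin 66} {X : Fin (2 ^ h)},
      f i = Sum.inr (Sum.inl p) → g j = Sum.inl (k, t, X) → cm s p.1.val k t = Hp i j := by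
    intro i j p k t X hf hg
    have := hc.eq i j
    rw [hf, hg] at this
    exact this
  refine thr_aux (s := s) (a := p0.1.val) (b := p1.1.val) (c := p2.1.val) (k0 := k0) (k1 := k1) (k2 := k2)
    (j0 := j0) (j1 := j1) (j2 := j2) ?_ ?_ ?_ ?_ ?_ ?_ ?_ ?_ ?_
  · rw [tr f0 g1]; exact (Hp_lt l0 l1).mpr d01
  · rw [tr f0 g2]; exact (Hp_lt l0 l2).mpr d02
  · rw [tr f1 g0]; exact (Hp_lt l1 l0).mpr d01.symm
  · rw [tr f1 g2]; exact (Hp_lt l1 l2).mpr d12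
  · rw [tr f2 g0]; exact (Hp_lt l2 l0).mpr d02.symm
  · rw [tr f2 g1]; exact (Hp_lt l2 l1).mpr d12.symm
  · rw [tr f0 g0, ← Bool.not_eq_true]; exact fun hh => ((Hp_lt l0 l0).mp hh) rfl
  · rw [tr f1 g1, ← Bool.not_eq_true]; exact fun hh => ((Hp_lt l1 l1).mp hh) rfl
  · rw [tr f2 g2, ← Bool.not_eq_true]; exact fun hh => ((Hp_lt l2 l2).mp hh) rfl

/-- frame indices -/
def S0 : Finset (Fin 66) := Finset.univ.filter fun i => i.val < 63

theorem mem_S0 {i : Fin 66} : i ∈ S0 ↔ i.val < 63 := by simp [S0]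

theorem S0_card : S0.card = 63 := by decide

def Sr (f : Fin 66 → Row h) : Finset (Fin 66) := S0.filter fun i => isCore (f i) = true

theorem mem_Sr {f : Fin 66 → Row h} {i : Fin 66} : i ∈ Sr f ↔ i.val < 63 ∧ isCore (f i) = true := by
  unfold Sr
  rw [Finset.mem_filter, mem_S0]

theorem Sr_card {s : Bool} {f g : Fin 66 → Row h} (hc : Cp s f g) : (Sr f).card ≤ 4 := by
  by_contra hcon
  have h1 : (Sr f ∩ Sr g).card + (Sr f \ Sr g).card = (Sr f).card := Finset.card_inter_add_card_sdiff _ _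
  have h2 : 2 < (Sr f ∩ Sr g).card ∨ 2 < (Sr f \ Sr g).card := by omega
  rcases h2 with h2 | h2
  · obtain ⟨i0, m0, i1, m1, i2, m2, d01, d02, d12⟩ := Finset.two_lt_card.mp h2
    rw [Finset.mem_inter, mem_Sr, mem_Sr] at m0 m1 m2
    obtain ⟨p0, f0⟩ := isCore_iff.mp m0.1.2
    obtain ⟨p1, f1⟩ := isCore_iff.mp m1.1.2
    obtain ⟨p2, f2⟩ := isCore_iff.mp m2.1.2
    obtain ⟨q0, g0⟩ := isCore_iff.mp m0.2.2
    obtain ⟨q1, g1⟩ := isCore_iff.mp m1.2.2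
    obtain ⟨q2, g2⟩ := isCore_iff.mp m2.2.2
    exact star hc m0.1.1 m1.1.1 m2.1.1 d01 d02 d12 f0 f1 f2 g0 g1 g2
  · obtain ⟨i0, m0, i1, m1, i2, m2, d01, d02, d12⟩ := Finset.two_lt_card.mp h2
    rw [Finset.mem_sdiff, mem_Sr, mem_Sr, not_and, Bool.not_eq_true] at m0 m1 m2
    exact thr hc m0.1.1 m1.1.1 m2.1.1 d01 d02 d12 m0.1.2 m1.1.2 m2.1.2 (m0.2 m0.1.1) (m1.2 m1.1.1)
      (m2.2 m2.1.1)

/-- good indices -/
def G (f g : Fin 66 → Row h) : Finset (Fin 66) := S0 \ (Sr f ∪ Sr g)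

theorem mem_G {f g : Fin 66 → Row h} {i : Fin 66} :
    i ∈ G f g ↔ i.val < 63 ∧ isCore (f i) = false ∧ isCore (g i) = false := by
  unfold G
  rw [Finset.mem_sdiff, Finset.mem_union, mem_S0, mem_Sr, mem_Sr]
  constructor
  · rintro ⟨h1, h2⟩
    rw [not_or, not_and, not_and, Bool.not_eq_true, Bool.not_eq_true] at h2
    exact ⟨h1, h2.1 h1, h2.2 h1⟩
  · rintro ⟨h1, h2, h3⟩
    refine ⟨h1, ?_⟩
    rw [h2, h3]
    simp

theorem G_card {s : Bool} {f g : Fin 66 → Row h} (hc : Cp s f g) : 55 ≤ (G f g).card := by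
  unfold G
  have h1 := Finset.le_card_sdiff (Sr f ∪ Sr g) S0
  have h2 := Finset.card_union_le (Sr f) (Sr g)
  have h3 := Sr_card hc
  have h4 := Sr_card hc.swap
  rw [S0_card] at h1
  omega

theorem kind_eq {s : Bool} {f g : Fin 66 → Row h} (hc : Cp s f g) {i j : Fin 66} (hi : i.val < 63)
    (hj : j.val < 63) (hij : i ≠ j) {k k' : Kind h} {t t' : Fin 66} {X X' : Fin (2 ^ h)}
    (hf : f i = Sum.inl (k, t, X)) (hg : g j = Sum.inl (k', t', X')) : k = k' := by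
  have := hc.eq i j
  rw [hf, hg, (Hp_lt hi hj).mpr hij] at this
  simp only [Mx, Bool.and_eq_true, decide_eq_true_eq] at this
  exact this.1

theorem exists_G {s : Bool} {f g : Fin 66 → Row h} (hc : Cp s f g) (i j : Fin 66) :
    ∃ l ∈ G f g, l ≠ i ∧ l ≠ j := by
  have h1 := G_card hc
  have h2 := Finset.le_card_sdiff ({i, j} : Finset (Fin 66)) (G f g)
  have h3 : ({i, j} : Finset (Fin 66)).card ≤ 2 := Finset.card_le_two
  have h4 : 0 < (G f g \ {i, j}).card := by omega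
  obtain ⟨l, hl⟩ := Finset.card_pos.mp h4
  rw [Finset.mem_sdiff, Finset.mem_insert, Finset.mem_singleton, not_or] at hl
  exact ⟨l, hl.1, hl.2.1, hl.2.2⟩

/-- all non-core frame elements have the same kind -/
theorem kind_all {s : Bool} {f g : Fin 66 → Row h} (hc : Cp s f g) :
    ∃ k : Kind h, (∀ i : Fin 66, i.val < 63 → isCore (f i) = false → ∃ j X, f i = Sum.inl (k, j, X)) ∧
      (∀ i : Fin 66, i.val < 63 → isCore (g i) = false → ∃ j X, g i = Sum.inl (k, j, X)) := by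
  obtain ⟨l, hl, -, -⟩ := exists_G hc 0 0
  have hl' := mem_G.mp hl
  obtain ⟨k, t, X, hfl⟩ := not_core hc hl'.2.1
  have hg : ∀ i : Fin 66, i.val < 63 → isCore (g i) = false → i ≠ l → ∃ j X, g i = Sum.inl (k, j, X) := by
    intro i hi hcore hil
    obtain ⟨k', t', X', hgi⟩ := not_core hc.swap hcore
    have := kind_eq hc hl'.1 hi hil.symm hfl hgi
    subst this
    exact ⟨t', X', hgi⟩
  have hf : ∀ i : Fin 66, i.val < 63 → isCore (f i) = false → ∃ j X, f i = Sum.inl (k, j, X) := by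
    intro i hi hcore
    obtain ⟨k', t', X', hfi⟩ := not_core hc hcore
    obtain ⟨m, hm, hmi, hml⟩ := exists_G hc i l
    have hm' := mem_G.mp hm
    obtain ⟨j, Y, hgm⟩ := hg m hm'.1 hm'.2.2 hml
    have := kind_eq hc hi hm'.1 hmi.symm hfi hgm
    subst this
    exact ⟨t', X', hfi⟩
  refine ⟨k, hf, ?_⟩
  intro i hi hcore
  by_cases hil : i = l
  · subst hil
    obtain ⟨k', t', X', hgi⟩ := not_core hc.swap hcore
    obtain ⟨m, hm, hmi, -⟩ := exists_G hc i i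
    have hm' := mem_G.mp hm
    obtain ⟨j, Y, hfm⟩ := hf m hm'.1 hm'.2.1
    have := kind_eq hc hm'.1 hi hmi hfm hgi
    subst this
    exact ⟨t', X', hgi⟩
  · exact hg i hi hcore hil

/-- no core rows in the frame -/
theorem frame_row {s : Bool} {f g : Fin 66 → Row h} (hc : Cp s f g) {i : Fin 66} (hi : i.val < 63) :
    isCore (f i) = false := by
  by_contra hcon
  rw [Bool.not_eq_false] at hcon
  obtain ⟨p, hp⟩ := isCore_iff.mp hcon
  obtain ⟨k, hkf, hkg⟩ := kind_all hc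
  have hG : ∀ j : Fin 66, ∃ t : Fin 66, j ∈ G f g → ∃ X, g j = Sum.inl (k, t, X) := by
    intro j
    by_cases hj : j ∈ G f g
    · have hj' := mem_G.mp hj
      obtain ⟨t, X, hgt⟩ := hkg j hj'.1 hj'.2.2
      exact ⟨t, fun _ => ⟨X, hgt⟩⟩
    · exact ⟨0, fun hh => absurd hh hj⟩
  choose t ht using hG
  have hcard := cm_card (s := s) k p.1.val
  have hsub : ((G f g).erase i).image t ⊆ Finset.univ.filter fun j : Fin 66 => cm s p.1.val k j = true := by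
    intro x hx
    rw [Finset.mem_image] at hx
    obtain ⟨j, hj, rfl⟩ := hx
    rw [Finset.mem_erase] at hj
    have hj' := mem_G.mp hj.2
    obtain ⟨X, hX⟩ := ht j hj.2
    rw [Finset.mem_filter]
    refine ⟨Finset.mem_univ _, ?_⟩
    have := hc.eq i j
    rw [hp, hX, (Hp_lt hi hj'.1).mpr hj.1.symm] at this
    exact this
  have hinj : Set.InjOn t ((G f g).erase i : Finset (Fin 66)) := by
    intro a ha b hb hab
    rw [Finset.mem_coe, Finset.mem_erase] at ha hb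
    by_contra hne
    have ha' := mem_G.mp ha.2
    have hb' := mem_G.mp hb.2
    obtain ⟨X, hX⟩ := ht a ha.2
    obtain ⟨Y, hY⟩ := ht b hb.2
    have e1 := hc.eq a a
    have e2 := hc.eq a b
    obtain ⟨j, Z, hfa⟩ := hkf a ha'.1 ha'.2.1
    rw [hX, hfa] at e1
    rw [hY, hfa, ← hab] at e2
    have e3 : Mx s (Sum.inl (k, j, Z)) (Sum.inl (k, t a, X)) = Mx s (Sum.inl (k, j, Z)) (Sum.inl (k, t a, Y)) := rfl
    rw [← e3, e1, (Hp_lt ha'.1 hb'.1).mpr hne] at e2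
    exact ((Hp_lt ha'.1 ha'.1).mp e2) rfl
  have h1 := Finset.card_le_card hsub
  rw [Finset.card_image_of_injOn hinj] at h1
  have h2 := G_card hc
  have h3 := Finset.pred_card_le_card_erase (s := G f g) (a := i)
  omega

/-- The frame of a copy consists of markers of one kind. -/
theorem frame {s : Bool} {f g : Fin 66 → Row h} (hc : Cp s f g) :
    ∃ (k : Kind h) (t t' : Fin 66 → Fin 66), (∀ i : Fin 66, i.val < 63 → ∃ X, f i = Sum.inl (k, t i, X)) ∧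
      (∀ i : Fin 66, i.val < 63 → ∃ X, g i = Sum.inl (k, t' i, X)) := by
  obtain ⟨k, hkf, hkg⟩ := kind_all hc
  have h1 : ∀ i : Fin 66, ∃ t : Fin 66, i.val < 63 → ∃ X, f i = Sum.inl (k, t, X) := by
    intro i
    by_cases hi : i.val < 63
    · obtain ⟨j, X, hX⟩ := hkf i hi (frame_row hc hi)
      exact ⟨j, fun _ => ⟨X, hX⟩⟩
    · exact ⟨0, fun hh => absurd hh hi⟩
  have h2 : ∀ i : Fin 66, ∃ t : Fin 66, i.val < 63 → ∃ X, g i = Sum.inl (k, t, X) := by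
    intro i
    by_cases hi : i.val < 63
    · obtain ⟨j, X, hX⟩ := hkg i hi (frame_row hc.swap hi)
      exact ⟨j, fun _ => ⟨X, hX⟩⟩
    · exact ⟨0, fun hh => absurd hh hi⟩
  choose t ht using h1
  choose t' ht' using h2
  exact ⟨k, t, t', ht, ht'⟩

end Crest.Agent.H8.OM
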