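import Mathlib
import Crest.Agent.H8.OM2

set_option autoImplicit false

namespace Crest.Agent.H8.OM

variable {h : ℕ}

def pos : Row h → ℕ
  | .inl (_, i, _) => if i.val < 64 then i.val else 64 + 2 ^ (h + 1) + i.val
  | .inr (.inl (a, X)) => 64 + (2 * (X.val / 2 ^ (h - a.val)) + 1) * 2 ^ (h - a.val)
  | .inr (.inr _) => 0

theorem tt {s : Bool} {f g : Fin 66 → Row h} (hc : Cp s f g) {k : Kind h} {t t' : Fin 66 → Fin 66}
    (hf : ∀ i : Fin 66, i.val < 63 → ∃ X, f i = Sum.inl (k, t i, X))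
    (hg : ∀ i : Fin 66, i.val < 63 → ∃ X, g i = Sum.inl (k, t' i, X)) {i j : Fin 66} (hi : i.val < 63)
    (hj : j.val < 63) : (act k (t i) && (act k (t' j) && Hp (t i) (t' j))) = Hp i j := by
  obtain ⟨X, hX⟩ := hf i hi
  obtain ⟨Y, hY⟩ := hg j hj
  have := hc.eq i j
  rw [hX, hY] at this
  simpa [Mx] using this

theorem ne_lt (i : Fin 66) : ∃ j : Fin 66, j.val < 63 ∧ j ≠ i := by
  by_cases h0 : i = 0
  · exact ⟨1, by decide, by rw [h0]; decide⟩
  · exact ⟨0, by decide, fun hh => h0 hh.symm⟩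

theorem tt_act {s : Bool} {f g : Fin 66 → Row h} (hc : Cp s f g) {k : Kind h} {t t' : Fin 66 → Fin 66}
    (hf : ∀ i : Fin 66, i.val < 63 → ∃ X, f i = Sum.inl (k, t i, X))
    (hg : ∀ i : Fin 66, i.val < 63 → ∃ X, g i = Sum.inl (k, t' i, X)) {i : Fin 66} (hi : i.val < 63) :
    act k (t i) = true := by
  obtain ⟨j, hj, hji⟩ := ne_lt i
  have := tt hc hf hg hi hj
  rw [(Hp_lt hi hj).mpr hji.symm, Bool.and_eq_true] at this
  exact this.1

theorem tt_act' {s : Bool} {f g : Fin 66 → Row h} (hc : Cp s f g) {k : Kind h} {t t' : Fin 66 → Fin 66}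
    (hf : ∀ i : Fin 66, i.val < 63 → ∃ X, f i = Sum.inl (k, t i, X))
    (hg : ∀ i : Fin 66, i.val < 63 → ∃ X, g i = Sum.inl (k, t' i, X)) {i : Fin 66} (hi : i.val < 63) :
    act k (t' i) = true :=
  tt_act hc.swap hg hf hi

theorem tt_Hp {s : Bool} {f g : Fin 66 → Row h} (hc : Cp s f g) {k : Kind h} {t t' : Fin 66 → Fin 66}
    (hf : ∀ i : Fin 66, i.val < 63 → ∃ X, f i = Sum.inl (k, t i, X))
    (hg : ∀ i : Fin 66, i.val < 63 → ∃ X, g i = Sum.inl (k, t' i, X)) {i j : Fin 66} (hi : i.val < 63)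
    (hj : j.val < 63) : Hp (t i) (t' j) = true ↔ i ≠ j := by
  have := tt hc hf hg hi hj
  rw [tt_act hc hf hg hi, tt_act' hc hf hg hj, Bool.true_and, Bool.true_and] at this
  rw [this]
  exact Hp_lt hi hj

theorem tt_inj {s : Bool} {f g : Fin 66 → Row h} (hc : Cp s f g) {k : Kind h} {t t' : Fin 66 → Fin 66}
    (hf : ∀ i : Fin 66, i.val < 63 → ∃ X, f i = Sum.inl (k, t i, X))
    (hg : ∀ i : Fin 66, i.val < 63 → ∃ X, g i = Sum.inl (k, t' i, X)) {i j : Fin 66} (hi : i.val < 63)
    (hj : j.val < 63) (hij : t i = t j) : i = j := by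
  by_contra hne
  have h1 := (tt_Hp hc hf hg hi hj).mpr hne
  rw [hij] at h1
  exact (tt_Hp hc hf hg hj hj).mp h1 rfl

theorem tt_lt {s : Bool} {f g : Fin 66 → Row h} (hc : Cp s f g) {k : Kind h} {t t' : Fin 66 → Fin 66}
    (hf : ∀ i : Fin 66, i.val < 63 → ∃ X, f i = Sum.inl (k, t i, X))
    (hg : ∀ i : Fin 66, i.val < 63 → ∃ X, g i = Sum.inl (k, t' i, X)) {i : Fin 66} (hi : i.val < 63) :
    (t i).val < 63 := by
  by_contra hcon
  have hcard := Hp_card (i := t i) (by omega)
  have hsub : (S0.erase i).image t' ⊆ Finset.univ.filter fun j : Fin 66 => Hp (t i) j = true := by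
    intro x hx
    rw [Finset.mem_image] at hx
    obtain ⟨j, hj, rfl⟩ := hx
    rw [Finset.mem_erase, mem_S0] at hj
    rw [Finset.mem_filter]
    exact ⟨Finset.mem_univ _, (tt_Hp hc hf hg hi hj.2).mpr hj.1.symm⟩
  have hinj : Set.InjOn t' (S0.erase i : Finset (Fin 66)) := by
    intro a ha b hb hab
    rw [Finset.mem_coe, Finset.mem_erase, mem_S0] at ha hb
    exact tt_inj hc.swap hg hf ha.2 hb.2 hab
  have h1 := Finset.card_le_card hsub
  rw [Finset.card_image_of_injOn hinj] at h1
  have h3 := Finset.pred_card_le_card_erase (s := S0) (a := i)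
  rw [S0_card] at h3
  omega

theorem tt_eq {s : Bool} {f g : Fin 66 → Row h} (hc : Cp s f g) {k : Kind h} {t t' : Fin 66 → Fin 66}
    (hf : ∀ i : Fin 66, i.val < 63 → ∃ X, f i = Sum.inl (k, t i, X))
    (hg : ∀ i : Fin 66, i.val < 63 → ∃ X, g i = Sum.inl (k, t' i, X)) {i : Fin 66} (hi : i.val < 63) :
    t i = t' i := by
  by_contra hne
  have h1 := (Hp_lt (tt_lt hc hf hg hi) (tt_lt hc.swap hg hf hi)).mpr hne
  exact (tt_Hp hc hf hg hi hi).mp h1 rfl

theorem tt_id {s : Bool} {f g : Fin 66 → Row h} (hc : Cp s f g) {k : Kind h} {t t' : Fin 66 → Fin 66}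
    (hf : ∀ i : Fin 66, i.val < 63 → ∃ X, f i = Sum.inl (k, t i, X))
    (hg : ∀ i : Fin 66, i.val < 63 → ∃ X, g i = Sum.inl (k, t' i, X))
    (hm : ∀ i j, i < j → pos (f i) ≤ pos (f j)) {i : Fin 66} (hi : i.val < 63) :
    t i = i := by
  have hlt := fun {i : Fin 66} (hi : i.val < 63) => tt_lt hc hf hg hi
  let u : Fin 63 → Fin 63 := fun a => ⟨(t ⟨a.val, by omega⟩).val, hlt a.isLt⟩
  have hu : StrictMono u := by
    intro a b hab
    have hab' : (⟨a.val, by omega⟩ : Fin 66) < ⟨b.val, by omega⟩ := hab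
    have h1 := hm _ _ hab'
    obtain ⟨X, hX⟩ := hf ⟨a.val, by omega⟩ a.isLt
    obtain ⟨Y, hY⟩ := hf ⟨b.val, by omega⟩ b.isLt
    rw [hX, hY] at h1
    simp only [pos] at h1
    have ha := hlt (i := ⟨a.val, by omega⟩) a.isLt
    have hb := hlt (i := ⟨b.val, by omega⟩) b.isLt
    rw [if_pos (by omega), if_pos (by omega)] at h1
    have hne : (t ⟨a.val, by omega⟩).val ≠ (t ⟨b.val, by omega⟩).val := by
      intro he
      have := tt_inj hc hf hg (i := ⟨a.val, by omega⟩) (j := ⟨b.val, by omega⟩) a.isLt b.isLt (Fin.ext he)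
      rw [Fin.ext_iff] at this
      have h2 := Fin.lt_def.mp hab
      simp only at this
      omega
    show (t ⟨a.val, by omega⟩).val < (t ⟨b.val, by omega⟩).val
    omega
  have h1 := hu.le_apply (x := ⟨i.val, hi⟩)
  have h2 := hu.apply_le (x := ⟨i.val, hi⟩)
  have h3 := le_antisymm h2 h1
  rw [Fin.ext_iff] at h3
  exact Fin.ext h3

/-- The frame of an ordered copy is standard. -/
theorem frame_id {s : Bool} {f g : Fin 66 → Row h} (hc : Cp s f g)
    (hm : ∀ i j, i < j → pos (f i) ≤ pos (f j)) :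
    ∃ k : Kind h, (∀ i : Fin 66, i.val < 63 → ∃ X, f i = Sum.inl (k, i, X)) ∧
      (∀ i : Fin 66, i.val < 63 → ∃ X, g i = Sum.inl (k, i, X)) := by
  obtain ⟨k, t, t', hf, hg⟩ := frame hc
  refine ⟨k, ?_, ?_⟩
  · intro i hi
    obtain ⟨X, hX⟩ := hf i hi
    rw [tt_id hc hf hg hm hi] at hX
    exact ⟨X, hX⟩
  · intro i hi
    obtain ⟨X, hX⟩ := hg i hi
    rw [← tt_eq hc hf hg hi, tt_id hc hf hg hm hi] at hX
    exact ⟨X, hX⟩

/-- a row of the pattern is determined by the first 63 entries when its index is ≥ 63 -/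
theorem Hp_det {i j : Fin 66} (hi : 63 ≤ i.val) (hj : ∀ l : Fin 66, l.val < 63 → Hp j l = Hp i l) : j = i := by
  have hil : i.val - 63 < 63 := by omega
  have h1 := hj ⟨i.val - 63, by omega⟩ hil
  have h2 : Hp i ⟨i.val - 63, by omega⟩ = true := by
    unfold Hp
    rw [if_neg (by omega), if_pos hil, decide_eq_true_iff]
    show i.val - 63 + 63 = i.val
    omega
  by_cases hjv : j.val < 63
  · exfalso
    -- pick l different from j and i-63
    obtain ⟨l, hl, hlj, hli⟩ : ∃ l : Fin 66, l.val < 63 ∧ l ≠ j ∧ l.val ≠ i.val - 63 := by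
      by_contra hcon
      push Not at hcon
      have a0 := hcon 10 (by decide)
      have a1 := hcon 11 (by decide)
      have v0 : (10 : Fin 66).val = 10 := rfl
      have v1 : (11 : Fin 66).val = 11 := rfl
      have := i.isLt
      by_cases c0 : (10 : Fin 66) = j
      · have : (11 : Fin 66) ≠ j := by rw [← c0]; decide
        have := a1 this
        omega
      · have := a0 c0
        omega
    have h3 := hj l hl
    rw [(Hp_lt hjv hl).mpr hlj.symm] at h3
    have h4 := Hp_ge hi h3.symm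
    omega
  · rw [h2] at h1
    have h5 := Hp_ge (by omega) h1
    apply Fin.ext
    rcases h5 with h5 | h5
    · have h6 : (⟨i.val - 63, by omega⟩ : Fin 66).val = i.val - 63 := rfl
      rw [h6] at h5
      omega
    · have h6 : (⟨i.val - 63, by omega⟩ : Fin 66).val = i.val - 63 := rfl
      rw [h6] at h5
      omega

/-- The last three rows. -/
theorem last {s : Bool} {f g : Fin 66 → Row h} (hc : Cp s f g) {k : Kind h}
    (hg : ∀ i : Fin 66, i.val < 63 → ∃ X, g i = Sum.inl (k, i, X)) {i : Fin 66} (hi : 63 ≤ i.val) :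
    (∃ X, f i = Sum.inl (k, i, X) ∧ act k i = true) ∨
      (∃ p : P h, f i = Sum.inr (Sum.inl p) ∧ role s k p.1.val = some i) := by
  have hil : i.val - 63 < 63 := by omega
  have h2 : Hp i ⟨i.val - 63, by omega⟩ = true := by
    unfold Hp
    rw [if_neg (by omega), if_pos hil, decide_eq_true_iff]
    show i.val - 63 + 63 = i.val
    omega
  obtain ⟨Y, hY⟩ := hg ⟨i.val - 63, by omega⟩ hil
  have h3 := hc.eq i ⟨i.val - 63, by omega⟩
  rw [hY, h2] at h3
  rcases hf : f i with ⟨k', j, X⟩ | p | p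
  · left
    rw [hf] at h3
    simp only [Mx, Bool.and_eq_true, decide_eq_true_eq] at h3
    obtain ⟨rfl, h4, h5, h6⟩ := h3
    have hd : j = i := by
      apply Hp_det hi
      intro l hl
      obtain ⟨Z, hZ⟩ := hg l hl
      have h7 := hc.eq i l
      rw [hf, hZ] at h7
      simp only [Mx, decide_true, Bool.true_and, h4] at h7
      -- need act k' l = true
      have h8 : act k' l = true := by
        rcases k' with _ | ⟨l', b, t⟩
        · simp only [act, decide_eq_true_eq]; omega
        · cases b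
          · simp only [act, decide_eq_true_eq]; omega
          · simp only [act, decide_eq_true_eq]; omega
      rw [h8, Bool.true_and] at h7
      exact h7
    subst hd
    exact ⟨X, rfl, h4⟩
  · right
    rw [hf] at h3
    refine ⟨p, rfl, ?_⟩
    have h3' : cm s p.1.val k ⟨i.val - 63, by omega⟩ = true := h3
    cases hr : role s k p.1.val with
    | none => simp [cm, hr] at h3'
    | some j =>
      have hd : j = i := by
        apply Hp_det hi
        intro l hl
        obtain ⟨Z, hZ⟩ := hg l hl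
        have h7 := hc.eq i l
        rw [hf, hZ] at h7
        have h7' : cm s p.1.val k l = Hp i l := h7
        have h8 : act k l = true := by
          rcases k with _ | ⟨l', b, t⟩
          · simp only [act, decide_eq_true_eq]; omega
          · cases b
            · simp only [act, decide_eq_true_eq]; omega
            · simp only [act, decide_eq_true_eq]; omega
        simp only [cm, hr, h8, Bool.true_and] at h7'
        exact h7'
      rw [hd]
  · exact absurd hf (noPad hc i p)

end Crest.Agent.H8.OM
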