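import Mathlib
import Crest.Agent.H8.OM3

set_option autoImplicit false

namespace Crest.Agent.H8.OM

variable {h : ℕ}

theorem pos_bounds {l a X : ℕ} (hl : l < a) (ha : a ≤ h) :
    2 * (X / 2 ^ (h - l - 1)) * 2 ^ (h - l - 1) < (2 * (X / 2 ^ (h - a)) + 1) * 2 ^ (h - a) ∧
    (2 * (X / 2 ^ (h - a)) + 1) * 2 ^ (h - a) < 2 * (X / 2 ^ (h - l - 1) + 1) * 2 ^ (h - l - 1) := by
  obtain ⟨m, hm⟩ : ∃ m, h - l - 1 = (h - a) + m := ⟨a - l - 1, by omega⟩
  rw [hm, pow_add, ← Nat.div_div_eq_div_mul]
  generalize h - a = e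
  generalize X / 2 ^ e = u
  have he : 0 < 2 ^ e := by positivity
  have hm' : 0 < 2 ^ m := by positivity
  have h1 : u / 2 ^ m * 2 ^ m ≤ u := Nat.div_mul_le_self u (2 ^ m)
  have h2 : u < (u / 2 ^ m + 1) * 2 ^ m := by
    have := Nat.lt_div_mul_add (a := u) hm'
    rw [add_mul, one_mul]; exact this
  constructor
  · calc 2 * (u / 2 ^ m) * (2 ^ e * 2 ^ m) = 2 * (u / 2 ^ m * 2 ^ m) * 2 ^ e := by ring
      _ ≤ 2 * u * 2 ^ e := by gcongr
      _ < (2 * u + 1) * 2 ^ e := by
          apply Nat.mul_lt_mul_of_pos_right _ he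
          omega
  · calc (2 * u + 1) * 2 ^ e < (2 * (u + 1)) * 2 ^ e := by
          apply Nat.mul_lt_mul_of_pos_right _ he
          omega
      _ ≤ (2 * ((u / 2 ^ m + 1) * 2 ^ m)) * 2 ^ e := by
          gcongr
          exact h2
      _ = 2 * (u / 2 ^ m + 1) * (2 ^ e * 2 ^ m) := by ring

theorem pos_bounds' {l a : Fin (h + 1)} {X : Fin (2 ^ h)} (hl : l.val < a.val) :
    64 + 2 * (X.val / 2 ^ (h - l.val - 1)) * 2 ^ (h - l.val - 1) < pos (Sum.inr (Sum.inl (a, X)) : Row h) ∧
    pos (Sum.inr (Sum.inl (a, X)) : Row h) < 64 + 2 * (X.val / 2 ^ (h - l.val - 1) + 1) * 2 ^ (h - l.val - 1) := by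
  have := pos_bounds (h := h) (X := X.val) hl (by omega)
  simp only [pos]
  omega

theorem pos_level {l : Fin (h + 1)} {X : Fin (2 ^ h)} (hl : l.val < h) :
    pos (Sum.inr (Sum.inl (l, X)) : Row h) = 64 + 2 * (2 * (X.val / 2 ^ (h - l.val)) + 1) * 2 ^ (h - l.val - 1) := by
  simp only [pos]
  have : h - l.val = (h - l.val - 1) + 1 := by omega
  rw [this, pow_succ]
  simp only [Nat.add_sub_cancel]
  ring

theorem half {l X : ℕ} (hl : l < h) : X / 2 ^ (h - l) = X / 2 ^ (h - l - 1) / 2 := by
  have : h - l = (h - l - 1) + 1 := by omega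
  rw [this, pow_succ, ← Nat.div_div_eq_div_mul]
  simp only [Nat.add_sub_cancel]

theorem bit0 {l a : Fin (h + 1)} {X X' : Fin (2 ^ h)} (hl : l.val < a.val) (hE : E h l.val X.val X'.val)
    (hp : pos (Sum.inr (Sum.inl (a, X)) : Row h) ≤ pos (Sum.inr (Sum.inl (l, X')) : Row h)) :
    X.val / 2 ^ (h - l.val - 1) = 2 * (X.val / 2 ^ (h - l.val)) := by
  have hlh : l.val < h := by omega
  have h1 := (pos_bounds' (X := X) hl).1
  rw [pos_level hlh] at hp
  unfold E at hE
  rw [← hE] at hp
  have hh := half (X := X.val) hlh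
  have h2 : 2 * (X.val / 2 ^ (h - l.val - 1)) * 2 ^ (h - l.val - 1) <
      2 * (2 * (X.val / 2 ^ (h - l.val)) + 1) * 2 ^ (h - l.val - 1) := by omega
  have h3 := Nat.lt_of_mul_lt_mul_right h2
  omega

theorem bit1 {l a : Fin (h + 1)} {X X' : Fin (2 ^ h)} (hl : l.val < a.val) (hE : E h l.val X.val X'.val)
    (hp : pos (Sum.inr (Sum.inl (l, X')) : Row h) ≤ pos (Sum.inr (Sum.inl (a, X)) : Row h)) :
    X.val / 2 ^ (h - l.val - 1) = 2 * (X.val / 2 ^ (h - l.val)) + 1 := by
  have hlh : l.val < h := by omega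
  have h1 := (pos_bounds' (X := X) hl).2
  rw [pos_level hlh] at hp
  unfold E at hE
  rw [← hE] at hp
  have hh := half (X := X.val) hlh
  have h2 : 2 * (2 * (X.val / 2 ^ (h - l.val)) + 1) * 2 ^ (h - l.val - 1) <
      2 * (X.val / 2 ^ (h - l.val - 1) + 1) * 2 ^ (h - l.val - 1) := by omega
  have h3 := Nat.lt_of_mul_lt_mul_right h2
  omega

theorem E_succ_of_bits {l X Y b : ℕ} (hE : E h l X Y)
    (hX : X / 2 ^ (h - l - 1) = 2 * (X / 2 ^ (h - l)) + b)
    (hY : Y / 2 ^ (h - l - 1) = 2 * (Y / 2 ^ (h - l)) + b) : E h (l + 1) X Y := by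
  unfold E at *
  rw [← Nat.sub_sub, hX, hY, hE]

theorem role_lev {s : Bool} {l : Fin h} {b t : Bool} {a : ℕ} {i : Fin 66}
    (hr : role s (some (l, b, t)) a = some i) (hi : i ≠ 64) : a = l.val := by
  by_contra hne
  simp only [role] at hr
  rw [if_neg hne] at hr
  split_ifs at hr with h2
  exact hi (Option.some.inj hr).symm

theorem role_64 {s : Bool} {l : Fin h} {b t : Bool} {a : ℕ}
    (hr : role s (some (l, b, t)) a = some 64) : a = l.val + 1 ∨ (xor t s = true ∧ l.val < a) := by
  by_contra hne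
  simp only [role] at hr
  rw [if_neg hne] at hr
  by_cases h1 : a = l.val
  · rw [if_pos h1] at hr
    cases b <;> exact absurd hr (by decide)
  · rw [if_neg h1] at hr
    exact absurd hr (by simp)

/-- In an ordered copy, elements number 63 are equal core elements of level `h`. -/
theorem copy_core {s : Bool} {f g : Fin 66 → Row h} (hc : Cp s f g)
    (hmf : ∀ i j, i < j → pos (f i) ≤ pos (f j)) (hmg : ∀ i j, i < j → pos (g i) ≤ pos (g j)) :
    ∃ X : Fin (2 ^ h), f 63 = Sum.inr (Sum.inl (Fin.last h, X)) ∧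
      g 63 = Sum.inr (Sum.inl (Fin.last h, X)) := by
  obtain ⟨k, hf, hg⟩ := frame_id hc hmf
  have v63 : (63 : Fin 66).val = 63 := rfl
  have v64 : (64 : Fin 66).val = 64 := rfl
  have v65 : (65 : Fin 66).val = 65 := rfl
  have lf := fun (i : Fin 66) (hi : 63 ≤ i.val) => last hc hg hi
  have lg := fun (i : Fin 66) (hi : 63 ≤ i.val) => last hc.swap hf hi
  have core : ∀ {i j : Fin 66} {p q : P h}, f i = Sum.inr (Sum.inl p) →
      g j = Sum.inr (Sum.inl q) → (E h (min p.1.val q.1.val) p.2.val q.2.val ↔ Hp i j = true) := by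
    intro i j p q hf hg
    have := hc.eq i j
    rw [hf, hg] at this
    rw [← this]
    show _ ↔ decide (E h (min p.1.val q.1.val) p.2.val q.2.val) = true
    rw [decide_eq_true_iff]
  have p6364 : (63 : Fin 66) < 64 := by decide
  have p6465 : (64 : Fin 66) < 65 := by decide
  rcases k with _ | ⟨l, b, t⟩
  · -- leaf
    rcases lf 63 (by decide) with ⟨X, -, hX⟩ | ⟨p, hp, hpr⟩
    · simp [act] at hX
    rcases lg 63 (by decide) with ⟨X, -, hX⟩ | ⟨q, hq, hqr⟩
    · simp [act] at hX
    have hp1 : p.1 = Fin.last h := by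
      apply Fin.ext
      simp only [role] at hpr
      split_ifs at hpr with hh
      rw [hh]; rfl
    have hq1 : q.1 = Fin.last h := by
      apply Fin.ext
      simp only [role] at hqr
      split_ifs at hqr with hh
      rw [hh]; rfl
    have hE := (core hp hq).mpr (by decide)
    rw [hp1, hq1] at hE
    unfold E at hE
    simp only [Fin.val_last, min_self, Nat.sub_self, pow_zero, Nat.div_one] at hE
    have hX : p.2 = q.2 := Fin.ext hE
    refine ⟨p.2, ?_, ?_⟩
    · rw [hp, ← hp1]
    · rw [hq, ← hq1, hX]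
  · exfalso
    cases b
    · -- row 65 is core of level l
      rcases lf 65 (by decide) with ⟨X, -, hX⟩ | ⟨p, hp, hpr⟩
      · simp [act] at hX
      rcases lg 65 (by decide) with ⟨X, -, hX⟩ | ⟨q, hq, hqr⟩
      · simp [act] at hX
      rcases lf 64 (by decide) with ⟨X, -, hX⟩ | ⟨p', hp', hpr'⟩
      · simp [act] at hX
      rcases lg 64 (by decide) with ⟨X, -, hX⟩ | ⟨q', hq', hqr'⟩
      · simp [act] at hX
      have hp1 : p.1.val = l.val := role_lev hpr (by decide)
      have hq1 : q.1.val = l.val := role_lev hqr (by decide)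
      have hp2 : p'.1.val = l.val + 1 ∨ (xor t s = true ∧ l.val < p'.1.val) := role_64 hpr'
      have hq2 : q'.1.val = l.val + 1 ∨ (xor t (!s) = true ∧ l.val < q'.1.val) := role_64 hqr'
      have hmin : min p'.1.val q'.1.val = l.val + 1 := by
        rcases hp2 with h1 | ⟨h1, h2⟩ <;> rcases hq2 with h3 | ⟨h3, h4⟩
        · omega
        · omega
        · omega
        · cases t <;> cases s <;> simp at h1 h3
      have e1 := (core hp hq).mpr (by decide)
      have e2 := (core hp hq').mpr (by decide)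
      have e3 := (core hp' hq).mpr (by decide)
      have e4 : ¬ E h (min p'.1.val q'.1.val) p'.2.val q'.2.val := by
        intro hh
        have := (core hp' hq').mp hh
        exact absurd this (by decide)
      rw [hmin] at e4
      have g1 : l.val < p'.1.val := by omega
      have g2 : l.val < q'.1.val := by omega
      have m1 : min p.1.val q.1.val = l.val := by omega
      have m2 : min p.1.val q'.1.val = l.val := by omega
      have m3 : min p'.1.val q.1.val = l.val := by omega
      rw [m1] at e1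
      rw [m2] at e2
      rw [m3] at e3
      have o1 := hmf 64 65 p6465
      have o2 := hmg 64 65 p6465
      rw [hp, hp'] at o1
      rw [hq, hq'] at o2
      have b1 := bit0 (l := p.1) (a := p'.1) (X := p'.2) (X' := p.2) (by omega)
        (by rw [hp1]; exact e3.trans e1.symm) o1
      have b2 := bit0 (l := q.1) (a := q'.1) (X := q'.2) (X' := q.2) (by omega)
        (by rw [hq1]; exact e2.symm.trans e1) o2
      rw [hp1] at b1
      rw [hq1] at b2
      exact e4 (E_succ_of_bits (b := 0) (e3.trans (e1.symm.trans e2)) b1 b2)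
    · -- row 63 is core of level l
      rcases lf 63 (by decide) with ⟨X, -, hX⟩ | ⟨p, hp, hpr⟩
      · simp [act] at hX
      rcases lg 63 (by decide) with ⟨X, -, hX⟩ | ⟨q, hq, hqr⟩
      · simp [act] at hX
      rcases lf 64 (by decide) with ⟨X, -, hX⟩ | ⟨p', hp', hpr'⟩
      · simp [act] at hX
      rcases lg 64 (by decide) with ⟨X, -, hX⟩ | ⟨q', hq', hqr'⟩
      · simp [act] at hX
      have hp1 : p.1.val = l.val := role_lev hpr (by decide)
      have hq1 : q.1.val = l.val := role_lev hqr (by decide)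
      have hp2 : p'.1.val = l.val + 1 ∨ (xor t s = true ∧ l.val < p'.1.val) := role_64 hpr'
      have hq2 : q'.1.val = l.val + 1 ∨ (xor t (!s) = true ∧ l.val < q'.1.val) := role_64 hqr'
      have hmin : min p'.1.val q'.1.val = l.val + 1 := by
        rcases hp2 with h1 | ⟨h1, h2⟩ <;> rcases hq2 with h3 | ⟨h3, h4⟩
        · omega
        · omega
        · omega
        · cases t <;> cases s <;> simp at h1 h3
      have e1 := (core hp hq).mpr (by decide)
      have e2 := (core hp hq').mpr (by decide)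
      have e3 := (core hp' hq).mpr (by decide)
      have e4 : ¬ E h (min p'.1.val q'.1.val) p'.2.val q'.2.val := by
        intro hh
        have := (core hp' hq').mp hh
        exact absurd this (by decide)
      rw [hmin] at e4
      have g1 : l.val < p'.1.val := by omega
      have g2 : l.val < q'.1.val := by omega
      have m1 : min p.1.val q.1.val = l.val := by omega
      have m2 : min p.1.val q'.1.val = l.val := by omega
      have m3 : min p'.1.val q.1.val = l.val := by omega
      rw [m1] at e1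
      rw [m2] at e2
      rw [m3] at e3
      have o1 := hmf 63 64 p6364
      have o2 := hmg 63 64 p6364
      rw [hp, hp'] at o1
      rw [hq, hq'] at o2
      have b1 := bit1 (l := p.1) (a := p'.1) (X := p'.2) (X' := p.2) (by omega)
        (by rw [hp1]; exact e3.trans e1.symm) o1
      have b2 := bit1 (l := q.1) (a := q'.1) (X := q'.2) (X' := q.2) (by omega)
        (by rw [hq1]; exact e2.symm.trans e1) o2
      rw [hp1] at b1
      rw [hq1] at b2
      exact e4 (E_succ_of_bits (b := 1) (e3.trans (e1.symm.trans e2)) b1 b2)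

end Crest.Agent.H8.OM
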