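import Mathlib
import Crest.Agent.H8.OM4

set_option autoImplicit false

namespace Crest.Agent.H8.OM

variable {h : ℕ}

open Classical in
/-- the block below node `q` of level `l` -/
noncomputable def blk (h l q : ℕ) : Finset (P h) :=
  Finset.univ.filter fun p => l ≤ p.1.val ∧ p.2.val / 2 ^ (h - l) = q

theorem mem_blk {l q : ℕ} {p : P h} : p ∈ blk h l q ↔ l ≤ p.1.val ∧ p.2.val / 2 ^ (h - l) = q := by
  simp [blk]

structure Cas (Φ : P h → P h → Prop) (R C : Finset (P h)) : Prop where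
  leaf : ∀ x : Fin (2 ^ h), (Fin.last h, x) ∈ R ∨ (Fin.last h, x) ∈ C ∨
    Φ (Fin.last h, x) (Fin.last h, x)
  step : ∀ l, l < h → ∀ r1 c1 r c : P h, r1.1.val = l → c1.1.val = l → min r.1.val c.1.val = l + 1 →
    E h l r1.2.val c1.2.val → E h l r1.2.val r.2.val → E h (l + 1) r.2.val c.2.val →
    r1 ∉ R → r ∉ R → c1 ∉ C → c ∉ C → Φ r c → Φ r1 c1 ∨ Φ r1 c ∨ Φ r c1

def Cov (Φ : P h → P h → Prop) (l q : ℕ) (R' C' : Finset (P h)) : Prop :=
  ∀ r ∈ blk h l q, ∀ c ∈ blk h l q, (r.1.val = l ∨ c.1.val = l) → Φ r c → r ∈ R' ∨ c ∈ C'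

theorem blk_succ_sub {l q b : ℕ} (hl : l < h) (hb : b < 2) : blk h (l + 1) (2 * q + b) ⊆ blk h l q := by
  intro p hp
  rw [mem_blk] at hp ⊢
  refine ⟨by omega, ?_⟩
  rw [half hl, Nat.sub_sub, hp.2]
  omega

theorem step_cov {Φ : P h → P h → Prop} {R C : Finset (P h)} (hΦ : Cas Φ R C) {l q b : ℕ} (hl : l < h)
    (hb : b < 2) {R' C' : Finset (P h)} (hR : R ⊆ R') (hC : C ⊆ C') {r1 c1 : P h}
    (hr1 : r1 ∈ blk h l q) (hc1 : c1 ∈ blk h l q) (hr1l : r1.1.val = l) (hc1l : c1.1.val = l)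
    (hr1R : r1 ∉ R) (hc1C : c1 ∉ C) (h11 : ¬ Φ r1 c1)
    (hr : ∀ r ∈ blk h l q, l < r.1.val → Φ r c1 → r ∈ R')
    (hc : ∀ c ∈ blk h l q, l < c.1.val → Φ r1 c → c ∈ C') : Cov Φ (l + 1) (2 * q + b) R' C' := by
  intro r hrb c hcb hlev hrc
  by_contra hcon
  rw [not_or] at hcon
  have hrb' := blk_succ_sub hl hb hrb
  have hcb' := blk_succ_sub hl hb hcb
  have e1 := (mem_blk.mp hr1).2
  have e2 := (mem_blk.mp hc1).2
  have e3 := (mem_blk.mp hrb').2
  have e4 := (mem_blk.mp hrb)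
  have e5 := (mem_blk.mp hcb)
  have := hΦ.step l hl r1 c1 r c hr1l hc1l (by omega) (by unfold E; rw [e1, e2]) (by unfold E; rw [e1, e3])
    (by unfold E; rw [e4.2, e5.2]) hr1R (fun hh => hcon.1 (hR hh)) hc1C (fun hh => hcon.2 (hC hh)) hrc
  rcases this with h1 | h1 | h1
  · exact h11 h1
  · exact hcon.2 (hc c hcb' (by omega) h1)
  · exact hcon.1 (hr r hrb' (by omega) h1)

theorem blk_disj {l q : ℕ} : Disjoint (blk h (l + 1) (2 * q)) (blk h (l + 1) (2 * q + 1)) := by
  rw [Finset.disjoint_left]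
  intro p hp hp'
  rw [mem_blk] at hp hp'
  omega

open Classical in
theorem split_card {l q : ℕ} (hl : l < h) (R' : Finset (P h)) :
    (R' ∩ blk h (l + 1) (2 * q)).card + (R' ∩ blk h (l + 1) (2 * q + 1)).card ≤ (R' ∩ blk h l q).card := by
  rw [← Finset.card_union_of_disjoint]
  · apply Finset.card_le_card
    intro p hp
    rw [Finset.mem_union, Finset.mem_inter, Finset.mem_inter] at hp
    rw [Finset.mem_inter]
    rcases hp with hp | hp
    · exact ⟨hp.1, blk_succ_sub (b := 0) hl (by omega) hp.2⟩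
    · exact ⟨hp.1, blk_succ_sub (b := 1) hl (by omega) hp.2⟩
  · exact blk_disj.mono Finset.inter_subset_right Finset.inter_subset_right

/-- number of level `l` elements in a block -/
theorem level_card {l q : ℕ} (hl : l ≤ h) (hq : q < 2 ^ l) {R' : Finset (P h)}
    (hR : ∀ p ∈ blk h l q, p.1.val = l → p ∈ R') : 2 ^ (h - l) ≤ (R' ∩ blk h l q).card := by
  have hpow : 2 ^ h = 2 ^ l * 2 ^ (h - l) := by rw [← pow_add]; congr 1; omega
  have hlt : ∀ i : Fin (2 ^ (h - l)), q * 2 ^ (h - l) + i.val < 2 ^ h := by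
    intro i
    have := i.isLt
    calc q * 2 ^ (h - l) + i.val < q * 2 ^ (h - l) + 2 ^ (h - l) := by omega
      _ = (q + 1) * 2 ^ (h - l) := by ring
      _ ≤ 2 ^ l * 2 ^ (h - l) := by gcongr; exact hq
      _ = 2 ^ h := hpow.symm
  let F : Fin (2 ^ (h - l)) → P h := fun i => (⟨l, by omega⟩, ⟨q * 2 ^ (h - l) + i.val, hlt i⟩)
  have hF : Function.Injective F := by
    intro a b hab
    simp only [F, Prod.mk.injEq, Fin.mk.injEq, true_and] at hab
    apply Fin.ext; omega
  have h1 : (Finset.univ.image F).card = 2 ^ (h - l) := by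
    rw [Finset.card_image_of_injective _ hF, Finset.card_univ, Fintype.card_fin]
  rw [← h1]
  apply Finset.card_le_card
  intro p hp
  rw [Finset.mem_image] at hp
  obtain ⟨i, -, rfl⟩ := hp
  have hb : F i ∈ blk h l q := by
    rw [mem_blk]
    refine ⟨le_refl _, ?_⟩
    show (q * 2 ^ (h - l) + i.val) / 2 ^ (h - l) = q
    rw [Nat.mul_comm, Nat.mul_add_div (by positivity), Nat.div_eq_of_lt i.isLt, add_zero]
  rw [Finset.mem_inter]
  exact ⟨hR _ hb rfl, hb⟩

theorem inv {Φ : P h → P h → Prop} {R C : Finset (P h)} (hΦ : Cas Φ R C) {R' C' : Finset (P h)}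
    (hR : R ⊆ R') (hC : C ⊆ C') : ∀ (m l q : ℕ), l + m = h → q < 2 ^ l → Cov Φ l q R' C' →
    2 ^ m ≤ (R' ∩ blk h l q).card + (C' ∩ blk h l q).card := by
  intro m
  induction m with
  | zero =>
    intro l q hl hq hcov
    have hlh : l = h := by omega
    subst hlh
    have hb : ((Fin.last l, ⟨q, hq⟩) : P l) ∈ blk l l q := by
      rw [mem_blk]
      simp
    have key : ((Fin.last l, ⟨q, hq⟩) : P l) ∈ R' ∨ ((Fin.last l, ⟨q, hq⟩) : P l) ∈ C' := by
      rcases hΦ.leaf ⟨q, hq⟩ with h1 | h1 | h1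
      · left; exact hR h1
      · right; exact hC h1
      · exact hcov _ hb _ hb (Or.inl rfl) h1
    rw [pow_zero]
    rcases key with h1 | h1
    · have : 0 < (R' ∩ blk l l q).card := Finset.card_pos.mpr ⟨_, Finset.mem_inter.mpr ⟨h1, hb⟩⟩
      omega
    · have : 0 < (C' ∩ blk l l q).card := Finset.card_pos.mpr ⟨_, Finset.mem_inter.mpr ⟨h1, hb⟩⟩
      omega
  | succ m ih =>
    intro l q hl hq hcov
    have hlh : l < h := by omega
    have hm : h - l = m + 1 := by omega
    by_cases hRall : ∀ p ∈ blk h l q, p.1.val = l → p ∈ R'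
    · have := level_card (by omega) hq hRall
      rw [hm] at this
      omega
    by_cases hCall : ∀ p ∈ blk h l q, p.1.val = l → p ∈ C'
    · have := level_card (by omega) hq hCall
      rw [hm] at this
      omega
    push Not at hRall hCall
    obtain ⟨r1, hr1, hr1l, hr1R⟩ := hRall
    obtain ⟨c1, hc1, hc1l, hc1C⟩ := hCall
    have hcov' : ∀ b, b < 2 → Cov Φ (l + 1) (2 * q + b) R' C' := by
      intro b hb
      apply step_cov hΦ hlh hb hR hC hr1 hc1 hr1l hc1l (fun hh => hr1R (hR hh)) (fun hh => hc1C (hC hh))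
      · intro h11
        rcases hcov _ hr1 _ hc1 (Or.inl hr1l) h11 with h1 | h1
        · exact hr1R h1
        · exact hc1C h1
      · intro r hr _ hrc
        rcases hcov _ hr _ hc1 (Or.inr hc1l) hrc with h1 | h1
        · exact h1
        · exact absurd h1 hc1C
      · intro c hc _ hrc
        rcases hcov _ hr1 _ hc (Or.inl hr1l) hrc with h1 | h1
        · exact absurd h1 hr1R
        · exact h1
    have hq' : 2 * q + 1 < 2 ^ (l + 1) := by rw [pow_succ]; omega
    have i0 := ih (l + 1) (2 * q + 0) (by omega) (by omega) (hcov' 0 (by omega))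
    have i1 := ih (l + 1) (2 * q + 1) (by omega) (by omega) (hcov' 1 (by omega))
    have s1 := split_card (q := q) hlh R'
    have s2 := split_card (q := q) hlh C'
    rw [add_zero] at i0
    rw [pow_succ]
    omega

end Crest.Agent.H8.OM
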