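import Mathlib
import Crest.Agent.H8.OM5

set_option autoImplicit false

namespace Crest.Agent.H8.OM

variable {h : ℕ}

def Z (h : ℕ) : Finset (P h) := Finset.univ.filter fun p => p.1.val = 0

def Z' (h : ℕ) : Finset (P h) := Finset.univ.filter fun p => ¬ p.1.val = 0

theorem mem_Z {p : P h} : p ∈ Z h ↔ p.1.val = 0 := by simp [Z]

theorem mem_Z' {p : P h} : p ∈ Z' h ↔ p.1.val ≠ 0 := by simp [Z']

theorem Z_card : (Z h).card = 2 ^ h := by
  have : Z h = Finset.univ.image (fun X : Fin (2 ^ h) => ((0, X) : P h)) := by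
    ext p
    rw [mem_Z, Finset.mem_image]
    constructor
    · intro hp
      refine ⟨p.2, Finset.mem_univ _, ?_⟩
      apply Prod.ext
      · exact Fin.ext hp.symm
      · rfl
    · rintro ⟨X, -, rfl⟩
      rfl
  rw [this, Finset.card_image_of_injective, Finset.card_univ, Fintype.card_fin]
  intro a b hab
  exact (Prod.mk.injEq _ _ _ _ ▸ hab).2

theorem sum_split (F : P h → ℕ) : ∑ p, F p = ∑ p ∈ Z h, F p + ∑ p ∈ Z' h, F p :=
  (Finset.sum_filter_add_sum_filter_not Finset.univ (fun p : P h => p.1.val = 0) F).symm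

open Classical in
theorem card_eq_sum (R : Finset (P h)) : R.card = ∑ p, if p ∈ R then 1 else 0 := by
  simp

open Classical in
theorem root {Φ : P h → P h → Prop} {R C : Finset (P h)} (hΦ : Cas Φ R C) (hh : 1 ≤ h) {r1 c1 : P h}
    (hr1 : r1 ∈ Z h) (hc1 : c1 ∈ Z h) :
    2 ^ h ≤ 2 ^ h * (if Φ r1 c1 then 1 else 0) + 2 ^ h * (if r1 ∈ R then 1 else 0) +
      2 ^ h * (if c1 ∈ C then 1 else 0) + (∑ r ∈ Z' h, if r ∈ R then 1 else 0) +
      (∑ c ∈ Z' h, if c ∈ C then 1 else 0) + (∑ c ∈ Z' h, if Φ r1 c then 1 else 0) +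
      (∑ r ∈ Z' h, if Φ r c1 then 1 else 0) := by
  by_cases h11 : Φ r1 c1
  · rw [if_pos h11]; omega
  by_cases hR : r1 ∈ R
  · rw [if_pos hR]; omega
  by_cases hC : c1 ∈ C
  · rw [if_pos hC]; omega
  rw [if_neg h11, if_neg hR, if_neg hC]
  rw [mem_Z] at hr1 hc1
  set bY : Finset (P h) := (Z' h).filter fun r => Φ r c1 with hbY
  set aX : Finset (P h) := (Z' h).filter fun c => Φ r1 c with haX
  have e1 : (∑ r ∈ Z' h, if Φ r c1 then 1 else 0) = bY.card := by
    rw [hbY, Finset.card_filter]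
  have e2 : (∑ c ∈ Z' h, if Φ r1 c then 1 else 0) = aX.card := by
    rw [haX, Finset.card_filter]
  have e3 : (∑ r ∈ Z' h, if r ∈ R then 1 else 0) = ((Z' h).filter fun r => r ∈ R).card := by
    rw [Finset.card_filter]
  have e4 : (∑ r ∈ Z' h, if r ∈ C then 1 else 0) = ((Z' h).filter fun r => r ∈ C).card := by
    rw [Finset.card_filter]
  rw [e1, e2, e3, e4]
  have hb0 : ∀ p : P h, p.1.val = 0 → p ∈ blk h 0 0 := by
    intro p hp
    rw [mem_blk]
    refine ⟨by omega, ?_⟩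
    exact Nat.div_eq_of_lt p.2.isLt
  have hb0' : ∀ p : P h, p ∈ blk h 0 0 := by
    intro p
    rw [mem_blk]
    refine ⟨by omega, ?_⟩
    exact Nat.div_eq_of_lt p.2.isLt
  have hcov : ∀ b, b < 2 → Cov Φ (0 + 1) (2 * 0 + b) (R ∪ bY) (C ∪ aX) := by
    intro b hb
    apply step_cov hΦ (by omega) hb Finset.subset_union_left Finset.subset_union_left (hb0' r1) (hb0' c1)
      hr1 hc1 hR hC h11
    · intro r _ hr0 hr
      apply Finset.mem_union_right
      rw [hbY, Finset.mem_filter, mem_Z']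
      exact ⟨by omega, hr⟩
    · intro c _ hc0 hc
      apply Finset.mem_union_right
      rw [haX, Finset.mem_filter, mem_Z']
      exact ⟨by omega, hc⟩
  have i0 := inv hΦ (Finset.subset_union_left (s₂ := bY)) (Finset.subset_union_left (s₂ := aX)) (h - 1) 1 (2 * 0 + 0)
    (by omega) (by norm_num) (hcov 0 (by omega))
  have i1 := inv hΦ (Finset.subset_union_left (s₂ := bY)) (Finset.subset_union_left (s₂ := aX)) (h - 1) 1 (2 * 0 + 1)
    (by omega) (by norm_num) (hcov 1 (by omega))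
  have key : ∀ (S T : Finset (P h)), T ⊆ Z' h → ((S ∪ T) ∩ blk h 1 (2 * 0 + 0)).card + ((S ∪ T) ∩ blk h 1 (2 * 0 + 1)).card ≤
      ((Z' h).filter fun r => r ∈ S).card + T.card := by
    intro S T hT
    rw [← Finset.card_union_of_disjoint]
    · refine le_trans (Finset.card_le_card ?_) (Finset.card_union_le _ _)
      intro p hp
      rw [Finset.mem_union, Finset.mem_inter, Finset.mem_inter, Finset.mem_union, mem_blk, mem_blk] at hp
      rw [Finset.mem_union, Finset.mem_filter, mem_Z']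
      rcases hp with ⟨hp1 | hp1, hp2⟩ | ⟨hp1 | hp1, hp2⟩
      · left; exact ⟨by omega, hp1⟩
      · right; exact hp1
      · left; exact ⟨by omega, hp1⟩
      · right; exact hp1
    · have := blk_disj (h := h) (l := 0) (q := 0)
      exact this.mono Finset.inter_subset_right Finset.inter_subset_right
  have k1 := key R bY (Finset.filter_subset _ _)
  have k2 := key C aX (Finset.filter_subset _ _)
  have hpow : 2 ^ h = 2 ^ (h - 1) + 2 ^ (h - 1) := by
    rw [← two_mul, ← pow_succ']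
    congr 1
    omega
  omega

open Classical in
theorem cascade {Φ : P h → P h → Prop} {R C : Finset (P h)} (hΦ : Cas Φ R C) (hh : 1 ≤ h) :
    2 ^ h * 2 ^ h ≤ (∑ r : P h, ∑ c : P h, if Φ r c then 1 else 0) + 2 ^ h * (R.card + C.card) := by
  set N := 2 ^ h with hN
  have hNpos : 0 < N := by positivity
  have hsum : ∑ r1 ∈ Z h, ∑ c1 ∈ Z h, N ≤ ∑ r1 ∈ Z h, ∑ c1 ∈ Z h, (N * (if Φ r1 c1 then 1 else 0) + N * (if r1 ∈ R then 1 else 0) +
      N * (if c1 ∈ C then 1 else 0) + (∑ r ∈ Z' h, if r ∈ R then 1 else 0) +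
      (∑ c ∈ Z' h, if c ∈ C then 1 else 0) + (∑ c ∈ Z' h, if Φ r1 c then 1 else 0) +
      (∑ r ∈ Z' h, if Φ r c1 then 1 else 0)) :=
    Finset.sum_le_sum fun r1 hr1 => Finset.sum_le_sum fun c1 hc1 => root hΦ hh hr1 hc1
  simp only [Finset.sum_add_distrib, Finset.sum_const, ← Finset.mul_sum, Z_card, smul_eq_mul, ← hN] at hsum
  have cR := card_eq_sum R
  have cC := card_eq_sum C
  rw [sum_split] at cR cC
  have hPhi : (∑ r : P h, ∑ c : P h, if Φ r c then 1 else 0) =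
      (∑ r ∈ Z h, ((∑ c ∈ Z h, if Φ r c then 1 else 0) + ∑ c ∈ Z' h, if Φ r c then 1 else 0)) +
      (∑ r ∈ Z' h, ((∑ c ∈ Z h, if Φ r c then 1 else 0) + ∑ c ∈ Z' h, if Φ r c then 1 else 0)) := by
    rw [sum_split]
    simp only [sum_split]
  rw [hPhi]
  simp only [Finset.sum_add_distrib]
  have hcomm : (∑ r ∈ Z' h, ∑ c ∈ Z h, if Φ r c then 1 else 0) = ∑ c ∈ Z h, ∑ r ∈ Z' h, if Φ r c then 1 else 0 :=
    Finset.sum_comm
  rw [hcomm]
  rw [cR, cC]
  generalize (∑ r ∈ Z h, ∑ c ∈ Z h, if Φ r c then 1 else 0) = A1 at *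
  generalize (∑ r ∈ Z h, ∑ c ∈ Z' h, if Φ r c then 1 else 0) = A2 at *
  generalize (∑ c ∈ Z h, ∑ r ∈ Z' h, if Φ r c then 1 else 0) = A3 at *
  generalize (∑ r ∈ Z' h, ∑ c ∈ Z' h, if Φ r c then 1 else 0) = A4 at *
  generalize (∑ r ∈ Z h, if r ∈ R then 1 else 0) = B1 at *
  generalize (∑ r ∈ Z' h, if r ∈ R then 1 else 0) = B2 at *
  generalize (∑ r ∈ Z h, if r ∈ C then 1 else 0) = B3 at *
  generalize (∑ r ∈ Z' h, if r ∈ C then 1 else 0) = B4 at *
  clear_value N
  subst hN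
  apply Nat.le_of_mul_le_mul_left _ hNpos
  clear hPhi
  generalize 2 ^ h = N at *
  nlinarith [Nat.zero_le (N * A4)]

end Crest.Agent.H8.OM
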