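import Mathlib
import Crest.Agent.H8.OM6

set_option autoImplicit false

namespace Crest.Agent.H8.OM

variable {h : ℕ}

def core (p : P h) : Row h := Sum.inr (Sum.inl p)

def mark (k : Kind h) (i : Fin 66) (X : Fin (2 ^ h)) : Row h := Sum.inl (k, i, X)

structure Good (s : Bool) (B : Row h → Row h → Bool) (X' Y' : Fin (2 ^ h)) (R C : Finset (P h)) : Prop where
  mm : ∀ k i k' j, B (mark k i X') (mark k' j Y') = Mx s (mark k i X') (mark k' j Y')
  cm : ∀ p, p ∉ R → ∀ k j, B (core p) (mark k j Y') = Mx s (core p) (mark k j Y')
  mc : ∀ p, p ∉ C → ∀ k i, B (mark k i X') (core p) = Mx s (mark k i X') (core p)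

def NoCopy (B : Row h → Row h → Bool) : Prop :=
  ¬ ∃ f g : Fin 66 → Row h, (∀ i j, i < j → pos (f i) < pos (f j)) ∧
    (∀ i j, i < j → pos (g i) < pos (g j)) ∧ ∀ i j, B (f i) (g j) = Hp i j

def PhiB (s : Bool) (B : Row h → Row h → Bool) (r c : P h) : Prop :=
  Mx s (core r) (core c) = true ∧ B (core r) (core c) = false

def cand (k : Kind h) (X : Fin (2 ^ h)) (o : Fin 66 → Option (P h)) (i : Fin 66) : Row h :=
  match o i with
  | some p => core p
  | none => mark k i X

theorem cand_some {k : Kind h} {X : Fin (2 ^ h)} {o : Fin 66 → Option (P h)} {i : Fin 66} {p : P h}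
    (hi : o i = some p) : cand k X o i = core p := by simp [cand, hi]

theorem cand_none {k : Kind h} {X : Fin (2 ^ h)} {o : Fin 66 → Option (P h)} {i : Fin 66}
    (hi : o i = none) : cand k X o i = mark k i X := by simp [cand, hi]

theorem cand_Hp {s : Bool} {B : Row h → Row h → Bool} {X' Y' : Fin (2 ^ h)} {R C : Finset (P h)}
    (hG : Good s B X' Y' R C) {k : Kind h} {oR oC : Fin 66 → Option (P h)}
    (hR : ∀ i p, oR i = some p → role s k p.1.val = some i ∧ p ∉ R)
    (hR' : ∀ i, oR i = none → act k i = true)
    (hC : ∀ i p, oC i = some p → role (!s) k p.1.val = some i ∧ p ∉ C)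
    (hC' : ∀ i, oC i = none → act k i = true)
    (hcc : ∀ i j p q, oR i = some p → oC j = some q → B (core p) (core q) = Hp i j) :
    ∀ i j, B (cand k X' oR i) (cand k Y' oC j) = Hp i j := by
  intro i j
  cases hi : oR i with
  | none =>
    rw [cand_none hi]
    cases hj : oC j with
    | none =>
      rw [cand_none hj, hG.mm]
      simp [Mx, mark, hR' i hi, hC' j hj]
    | some q =>
      rw [cand_some hj, hG.mc q (hC j q hj).2]
      have : Mx s (mark k i X') (core q) = cm (!s) q.1.val k i := rfl
      rw [this]
      simp only [cm, (hC j q hj).1, hR' i hi, Bool.true_and]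
      exact Hp_symm j i
  | some p =>
    rw [cand_some hi]
    cases hj : oC j with
    | none =>
      rw [cand_none hj, hG.cm p (hR i p hi).2]
      have : Mx s (core p) (mark k j Y') = cm s p.1.val k j := rfl
      rw [this]
      simp only [cm, (hR i p hi).1, hC' j hj, Bool.true_and]
    | some q =>
      rw [cand_some hj]
      exact hcc i j p q hi hj

theorem mono_of {f : Fin 66 → Row h} (h0 : ∀ i : Fin 66, i.val < 63 → pos (f i) = i.val)
    (h1 : 62 < pos (f 63)) (h2 : pos (f 63) < pos (f 64)) (h3 : pos (f 64) < pos (f 65)) :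
    ∀ i j, i < j → pos (f i) < pos (f j) := by
  intro i j hij
  have hij' := Fin.lt_def.mp hij
  have hb : ∀ m : Fin 66, m.val < 63 ∨ m = 63 ∨ m = 64 ∨ m = 65 := by
    intro m
    by_cases hm : m.val < 63
    · exact Or.inl hm
    · right
      have := m.isLt
      rcases (by omega : m.val = 63 ∨ m.val = 64 ∨ m.val = 65) with h | h | h
      · left; exact Fin.ext h
      · right; left; exact Fin.ext h
      · right; right; exact Fin.ext h
  rcases hb i with hi | rfl | rfl | rfl
  · rw [h0 i hi]
    rcases hb j with hj | rfl | rfl | rfl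
    · rw [h0 j hj]; exact hij'
    · omega
    · omega
    · omega
  · rcases hb j with hj | rfl | rfl | rfl
    · exact absurd hij' (by have : (63 : Fin 66).val = 63 := rfl; omega)
    · exact absurd hij (by decide)
    · exact h2
    · exact h2.trans h3
  · rcases hb j with hj | rfl | rfl | rfl
    · exact absurd hij' (by have : (64 : Fin 66).val = 64 := rfl; omega)
    · exact absurd hij (by decide)
    · exact absurd hij (by decide)
    · exact h3
  · rcases hb j with hj | rfl | rfl | rfl
    · exact absurd hij' (by have : (65 : Fin 66).val = 65 := rfl; omega)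
    · exact absurd hij (by decide)
    · exact absurd hij (by decide)
    · exact absurd hij (by decide)

theorem pos_mark {k : Kind h} {i : Fin 66} {X : Fin (2 ^ h)} (hi : i.val < 64) : pos (mark k i X) = i.val := by
  simp [pos, mark, hi]

theorem pos_mark' {k : Kind h} {i : Fin 66} {X : Fin (2 ^ h)} (hi : ¬ i.val < 64) :
    pos (mark k i X) = 64 + 2 ^ (h + 1) + i.val := by
  simp [pos, mark, hi]

theorem pos_core_lt (p : P h) : pos (core p) < 64 + 2 ^ (h + 1) := by
  simp only [pos, core]
  have h1 : p.2.val / 2 ^ (h - p.1.val) < 2 ^ p.1.val := by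
    apply Nat.div_lt_of_lt_mul
    rw [← pow_add]
    have : h - p.1.val + p.1.val = h := by have := p.1.isLt; omega
    rw [this]
    exact p.2.isLt
  have h2 : 2 ^ (h + 1) = 2 * 2 ^ p.1.val * 2 ^ (h - p.1.val) := by
    rw [mul_assoc, ← pow_add, ← pow_succ']
    congr 1
    have := p.1.isLt; omega
  rw [h2]
  have h3 : (2 * (p.2.val / 2 ^ (h - p.1.val)) + 1) * 2 ^ (h - p.1.val) < 2 * 2 ^ p.1.val * 2 ^ (h - p.1.val) := by
    apply Nat.mul_lt_mul_of_pos_right _ (by positivity)
    omega
  omega

theorem pos_core_gt (p : P h) : 64 < pos (core p) := by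
  simp only [pos, core]
  have : 0 < (2 * (p.2.val / 2 ^ (h - p.1.val)) + 1) * 2 ^ (h - p.1.val) := by positivity
  omega

/-- leaf selector -/
def selL (p : P h) (i : Fin 66) : Option (P h) := if i = 63 then some p else none

theorem monoL (p : P h) (X : Fin (2 ^ h)) :
    ∀ i j, i < j → pos (cand none X (selL p) i) < pos (cand none X (selL p) j) := by
  have e63 : cand none X (selL p) 63 = core p := cand_some (by simp [selL])
  have e64 : cand none X (selL p) 64 = mark none 64 X := cand_none (by simp [selL])
  have e65 : cand none X (selL p) 65 = mark none 65 X := cand_none (by simp [selL])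
  apply mono_of
  · intro i hi
    have : selL p i = none := by
      unfold selL
      rw [if_neg]
      rintro rfl
      exact absurd hi (by decide)
    rw [cand_none this, pos_mark (by omega)]
  · rw [e63]; have := pos_core_gt p; omega
  · rw [e63, e64, pos_mark' (by decide)]; have := pos_core_lt p; omega
  · rw [e64, e65, pos_mark' (by decide), pos_mark' (by decide)]
    have v1 : (64 : Fin 66).val = 64 := rfl
    have v2 : (65 : Fin 66).val = 65 := rfl
    omega

/-- step selector -/
def selS (b : Bool) (p r : P h) (i : Fin 66) : Option (P h) :=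
  if i = 64 then some r else if i = (if b then 63 else 65) then some p else none

theorem monoS {l : Fin h} {b t : Bool} {p r : P h} (X : Fin (2 ^ h)) (hp : p.1.val = l.val) (hr : l.val < r.1.val)
    (hE : E h l.val r.2.val p.2.val)
    (hb : r.2.val / 2 ^ (h - l.val - 1) = 2 * (r.2.val / 2 ^ (h - l.val)) + (if b then 1 else 0)) :
    ∀ i j, i < j → pos (cand (some (l, b, t)) X (selS b p r) i) < pos (cand (some (l, b, t)) X (selS b p r) j) := by
  have hlt := l.isLt
  have hpos := pos_bounds' (h := h) (l := p.1) (a := r.1) (X := r.2) (by omega)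
  have hlev := pos_level (h := h) (l := p.1) (X := p.2) (by omega)
  rw [hp] at hpos hlev
  unfold E at hE
  rw [← hE] at hlev
  have e64 : cand (some (l, b, t)) X (selS b p r) 64 = core r := cand_some (by simp [selS])
  have h0 : ∀ i : Fin 66, i.val < 63 → pos (cand (some (l, b, t)) X (selS b p r) i) = i.val := by
    intro i hi
    have : selS b p r i = none := by
      unfold selS
      rw [if_neg, if_neg]
      · rintro rfl
        cases b <;> exact absurd hi (by decide)
      · rintro rfl
        exact absurd hi (by decide)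
    rw [cand_none this, pos_mark (by omega)]
  cases b
  · have e63 : cand (some (l, false, t)) X (selS false p r) 63 = mark (some (l, false, t)) 63 X :=
      cand_none (by simp [selS])
    have e65 : cand (some (l, false, t)) X (selS false p r) 65 = core p := cand_some (by simp [selS])
    apply mono_of h0
    · rw [e63, pos_mark (by decide)]; decide
    · rw [e63, e64, pos_mark (by decide)]
      have := pos_core_gt r
      have v1 : (63 : Fin 66).val = 63 := rfl
      omega
    · rw [e64, e65]
      rw [if_neg (by simp), add_zero] at hb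
      show pos (Sum.inr (Sum.inl (r.1, r.2)) : Row h) < pos (Sum.inr (Sum.inl (p.1, p.2)) : Row h)
      rw [hlev, ← hb]
      exact hpos.2
  · have e63 : cand (some (l, true, t)) X (selS true p r) 63 = core p := cand_some (by simp [selS])
    have e65 : cand (some (l, true, t)) X (selS true p r) 65 = mark (some (l, true, t)) 65 X :=
      cand_none (by simp [selS])
    apply mono_of h0
    · rw [e63]; have := pos_core_gt p; omega
    · rw [e63, e64]
      rw [if_pos rfl] at hb
      show pos (Sum.inr (Sum.inl (p.1, p.2)) : Row h) < pos (Sum.inr (Sum.inl (r.1, r.2)) : Row h)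
      rw [hlev, ← hb]
      exact hpos.1
    · rw [e64, e65, pos_mark' (by decide)]
      have := pos_core_lt r
      omega

theorem cas_of {s : Bool} {B : Row h → Row h → Bool} {X' Y' : Fin (2 ^ h)} {R C : Finset (P h)}
    (hG : Good s B X' Y' R C) (hn : NoCopy B) : Cas (PhiB s B) R C := by
  constructor
  · intro x
    by_contra hcon
    rw [not_or, not_or] at hcon
    obtain ⟨hR, hC, hΦ⟩ := hcon
    apply hn
    refine ⟨cand none X' (selL (Fin.last h, x)), cand none Y' (selL (Fin.last h, x)), monoL _ _, monoL _ _, ?_⟩
    have sel1 : ∀ (i : Fin 66) (p : P h), selL (Fin.last h, x) i = some p → i = 63 ∧ p = (Fin.last h, x) := by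
      intro i p hp
      unfold selL at hp
      split_ifs at hp with h1
      exact ⟨h1, (Option.some.inj hp).symm⟩
    have sel2 : ∀ (i : Fin 66), selL ((Fin.last h, x) : P h) i = none → act (none : Kind h) i = true := by
      intro i hi
      unfold selL at hi
      split_ifs at hi with h1
      simp only [act, decide_eq_true_eq]
      intro h2
      exact h1 (Fin.ext h2)
    apply cand_Hp hG
    · intro i p hp
      obtain ⟨rfl, rfl⟩ := sel1 i p hp
      exact ⟨by simp [role], hR⟩
    · exact sel2
    · intro i p hp
      obtain ⟨rfl, rfl⟩ := sel1 i p hp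
      exact ⟨by simp [role], hC⟩
    · exact sel2
    · intro i j p q hp hq
      obtain ⟨rfl, rfl⟩ := sel1 i p hp
      obtain ⟨rfl, rfl⟩ := sel1 j q hq
      have h1 : Hp 63 63 = true := by decide
      rw [h1]
      by_contra hB
      rw [Bool.not_eq_true] at hB
      exact hΦ ⟨by simp [Mx, core, E], hB⟩
  · intro l hl r1 c1 r c hr1 hc1 hmin E1 E2 E3 nR1 nR nC1 nC hΦ
    by_contra hcon
    rw [not_or, not_or] at hcon
    obtain ⟨n1, n2, n3⟩ := hcon
    apply hn
    -- the bit
    have hhalf := half (X := r.2.val) hl
    have hhalf' := half (X := c.2.val) hl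
    have E3' := E3
    unfold E at E3'
    rw [← Nat.sub_sub] at E3'
    obtain ⟨b, hb⟩ : ∃ b : Bool, r.2.val / 2 ^ (h - l - 1) = 2 * (r.2.val / 2 ^ (h - l)) + (if b then 1 else 0) := by
      rcases Nat.mod_two_eq_zero_or_one (r.2.val / 2 ^ (h - l - 1)) with h1 | h1
      · exact ⟨false, by simp only [Bool.false_eq_true, if_false]; omega⟩
      · exact ⟨true, by simp only [if_true]; omega⟩
    have hb' : c.2.val / 2 ^ (h - l - 1) = 2 * (c.2.val / 2 ^ (h - l)) + (if b then 1 else 0) := by
      rw [hhalf', ← E3', ← hhalf, hb]
    -- the tau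
    obtain ⟨t, ht1, ht2⟩ : ∃ t : Bool, (r.1.val = l + 1 ∨ (xor t s = true ∧ l < r.1.val)) ∧
        (c.1.val = l + 1 ∨ (xor t (!s) = true ∧ l < c.1.val)) := by
      by_cases h1 : r.1.val = l + 1
      · exact ⟨s, Or.inl h1, Or.inr ⟨by cases s <;> rfl, by omega⟩⟩
      · exact ⟨!s, Or.inr ⟨by cases s <;> rfl, by omega⟩, Or.inl (by omega)⟩
    refine ⟨cand (some (⟨l, hl⟩, b, t)) X' (selS b r1 r), cand (some (⟨l, hl⟩, b, t)) Y' (selS b c1 c),
      monoS X' hr1 (by show l < _; omega) E2.symm hb,
      monoS Y' hc1 (by show l < _; omega)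
        (((E3.mono (Nat.le_succ l)).symm.trans E2.symm).trans E1) hb', ?_⟩
    have sel1 : ∀ (i : Fin 66) (p q z : P h), selS b p q i = some z →
        (i = 64 ∧ z = q) ∨ (i = (if b then 63 else 65) ∧ z = p) := by
      intro i p q z hz
      unfold selS at hz
      split_ifs at hz with h1 h2 h3
      · exact Or.inl ⟨h1, (Option.some.inj hz).symm⟩
      · right; rw [if_pos h2]; exact ⟨h3, (Option.some.inj hz).symm⟩
      · right; rw [if_neg h2]; rename_i h4; exact ⟨h4, (Option.some.inj hz).symm⟩
    have sel2 : ∀ (i : Fin 66) (p q : P h), selS b p q i = none →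
        act (some (⟨l, hl⟩, b, t) : Kind h) i = true := by
      intro i p q hi
      unfold selS at hi
      cases b
      · simp only [act, decide_eq_true_eq]
        constructor
        · intro h2
          have h3 : i = 64 := Fin.ext h2
          simp [h3] at hi
        · intro h2
          have h3 : i = 65 := Fin.ext h2
          simp [h3] at hi
      · simp only [act, decide_eq_true_eq]
        constructor
        · intro h2
          have h3 : i = 63 := Fin.ext h2
          simp [h3] at hi
        · intro h2
          have h3 : i = 64 := Fin.ext h2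
          simp [h3] at hi
    apply cand_Hp hG
    · intro i z hz
      rcases sel1 i _ _ z hz with ⟨rfl, rfl⟩ | ⟨rfl, rfl⟩
      · refine ⟨?_, nR⟩
        simp only [role]
        rw [if_neg (by omega), if_pos ht1]
      · refine ⟨?_, nR1⟩
        simp only [role]
        rw [if_pos hr1]
    · exact fun i hi => sel2 i _ _ hi
    · intro i z hz
      rcases sel1 i _ _ z hz with ⟨rfl, rfl⟩ | ⟨rfl, rfl⟩
      · refine ⟨?_, nC⟩
        simp only [role]
        rw [if_neg (by omega), if_pos ht2]
      · refine ⟨?_, nC1⟩
        simp only [role]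
        rw [if_pos hc1]
    · exact fun i hi => sel2 i _ _ hi
    · intro i j z w hz hw
      have Mt : ∀ (p q : P h), E h (min p.1.val q.1.val) p.2.val q.2.val → ¬ PhiB s B p q →
          B (core p) (core q) = true := by
        intro p q hE hP
        by_contra hB
        rw [Bool.not_eq_true] at hB
        exact hP ⟨decide_eq_true hE, hB⟩
      rcases sel1 i _ _ z hz with ⟨rfl, rfl⟩ | ⟨rfl, rfl⟩
      · rcases sel1 j _ _ w hw with ⟨rfl, rfl⟩ | ⟨rfl, rfl⟩
        · rw [hΦ.2]; decide
        · rw [Mt z w _ n3]
          · cases b <;> decide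
          · have m : min z.1.val w.1.val = l := by omega
            rw [m]
            exact E2.symm.trans E1
      · rcases sel1 j _ _ w hw with ⟨rfl, rfl⟩ | ⟨rfl, rfl⟩
        · rw [Mt z w _ n2]
          · cases b <;> decide
          · have m : min z.1.val w.1.val = l := by omega
            rw [m]
            exact E2.trans (E3.mono (Nat.le_succ l))
        · rw [Mt z w _ n1]
          · cases b <;> decide
          · have m : min z.1.val w.1.val = l := by omega
            rw [m]
            exact E1

end Crest.Agent.H8.OM
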