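import Mathlib
import Crest.Agent.H8.OM7

set_option autoImplicit false

namespace Crest.Agent.H8.OM

variable {h : ℕ}

theorem proj_le {α β γ δ : Type} [Fintype α] [Fintype β] [Fintype γ] [Fintype δ] (p : α → β → Prop)
    (q : γ → δ → Prop) {ip : ∀ a b, Decidable (p a b)} {iq : ∀ c d, Decidable (q c d)} (f : γ → α) (g : δ → β)
    (hpq : ∀ a b, p a b → ∃ c d, f c = a ∧ g d = b ∧ q c d) :
    (∑ a, ∑ b, if p a b then 1 else 0) ≤ ∑ c, ∑ d, if q c d then 1 else 0 := by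
  classical
  have e1 : (∑ a, ∑ b, if p a b then 1 else 0) =
      (Finset.univ.filter fun x : α × β => p x.1 x.2).card := by
    rw [Finset.card_filter, Fintype.sum_prod_type]
  have e2 : (∑ c, ∑ d, if q c d then 1 else 0) =
      (Finset.univ.filter fun x : γ × δ => q x.1 x.2).card := by
    rw [Finset.card_filter, Fintype.sum_prod_type]
  rw [e1, e2]
  have hsub : (Finset.univ.filter fun x : α × β => p x.1 x.2) ⊆
      (Finset.univ.filter fun x : γ × δ => q x.1 x.2).image (fun x => (f x.1, g x.2)) := by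
    intro x hx
    rw [Finset.mem_filter] at hx
    obtain ⟨c, d, h1, h2, h3⟩ := hpq x.1 x.2 hx.2
    rw [Finset.mem_image]
    refine ⟨(c, d), ?_, ?_⟩
    · rw [Finset.mem_filter]
      exact ⟨Finset.mem_univ _, h3⟩
    · simp [h1, h2]
  exact (Finset.card_le_card hsub).trans Finset.card_image_le

open Classical in
theorem far {s : Bool} {B : Row h → Row h → Bool} (hh : 1 ≤ h) (hn : NoCopy B) :
    2 ^ h * 2 ^ h ≤ ∑ r : Row h, ∑ c : Row h, if Mx s r c ≠ B r c then 1 else 0 := by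
  let RS : Fin (2 ^ h) → Finset (P h) := fun Y' =>
    Finset.univ.filter fun p => ∃ k j, B (core p) (mark k j Y') ≠ Mx s (core p) (mark k j Y')
  let CS : Fin (2 ^ h) → Finset (P h) := fun X' =>
    Finset.univ.filter fun p => ∃ k i, B (mark k i X') (core p) ≠ Mx s (mark k i X') (core p)
  obtain ⟨MM, hMM⟩ : ∃ MM : Fin (2 ^ h) → Fin (2 ^ h) → Prop, ∀ X' Y', MM X' Y' ↔
      ∃ k i k' j, B (mark k i X') (mark k' j Y') ≠ Mx s (mark k i X') (mark k' j Y') :=
    ⟨fun X' Y' => ∃ k i k' j, B (mark k i X') (mark k' j Y') ≠ Mx s (mark k i X') (mark k' j Y'),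
      fun _ _ => Iff.rfl⟩
  have hmain : ∀ X' Y' : Fin (2 ^ h), 2 ^ h * 2 ^ h ≤ 2 ^ h * 2 ^ h * (if MM X' Y' then 1 else 0) +
      (∑ r : P h, ∑ c : P h, if PhiB s B r c then 1 else 0) + 2 ^ h * ((RS Y').card + (CS X').card) := by
    intro X' Y'
    by_cases hM : MM X' Y'
    · rw [if_pos hM]; omega
    rw [if_neg hM]
    have hG : Good s B X' Y' (RS Y') (CS X') := by
      constructor
      · intro k i k' j
        by_contra hcon
        exact hM ((hMM _ _).mpr ⟨k, i, k', j, hcon⟩)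
      · intro p hp k j
        by_contra hcon
        exact hp (Finset.mem_filter.mpr ⟨Finset.mem_univ _, k, j, hcon⟩)
      · intro p hp k i
        by_contra hcon
        exact hp (Finset.mem_filter.mpr ⟨Finset.mem_univ _, k, i, hcon⟩)
    have := cascade (cas_of hG hn) hh
    omega
  have hsum : ∑ X' : Fin (2 ^ h), ∑ Y' : Fin (2 ^ h), 2 ^ h * 2 ^ h ≤ ∑ X' : Fin (2 ^ h), ∑ Y' : Fin (2 ^ h),
      (2 ^ h * 2 ^ h * (if MM X' Y' then 1 else 0) +
      (∑ r : P h, ∑ c : P h, if PhiB s B r c then 1 else 0) + 2 ^ h * ((RS Y').card + (CS X').card)) :=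
    Finset.sum_le_sum fun X' _ => Finset.sum_le_sum fun Y' _ => hmain X' Y'
  simp only [Finset.sum_add_distrib, mul_add, Finset.sum_const, ← Finset.mul_sum, Finset.card_univ,
    Fintype.card_fin, smul_eq_mul] at hsum
  have i1 : (∑ X' : Fin (2 ^ h), ∑ Y' : Fin (2 ^ h), if MM X' Y' then 1 else 0) ≤
      ∑ m : Kind h × Fin 66 × Fin (2 ^ h), ∑ m' : Kind h × Fin 66 × Fin (2 ^ h),
        if Mx s (Sum.inl m) (Sum.inl m') ≠ B (Sum.inl m) (Sum.inl m') then 1 else 0 := by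
    apply proj_le MM (fun m m' : Kind h × Fin 66 × Fin (2 ^ h) =>
      Mx s (Sum.inl m) (Sum.inl m') ≠ B (Sum.inl m) (Sum.inl m')) (fun m => m.2.2) (fun m => m.2.2)
    intro a b hab
    obtain ⟨k, i, k', j, hne⟩ := (hMM _ _).mp hab
    exact ⟨(k, i, a), (k', j, b), rfl, rfl, fun hh => hne hh.symm⟩
  have i2 : (∑ Y' : Fin (2 ^ h), (RS Y').card) ≤
      ∑ p : P h, ∑ m' : Kind h × Fin 66 × Fin (2 ^ h),
        if Mx s (Sum.inr (Sum.inl p)) (Sum.inl m') ≠ B (Sum.inr (Sum.inl p)) (Sum.inl m') then 1 else 0 := by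
    have e : (∑ Y' : Fin (2 ^ h), (RS Y').card) = ∑ p : P h, ∑ Y' : Fin (2 ^ h), if p ∈ RS Y' then 1 else 0 := by
      rw [Finset.sum_comm]
      exact Finset.sum_congr rfl fun Y' _ => card_eq_sum _
    rw [e]
    apply proj_le (fun p Y' => p ∈ RS Y') (fun (p : P h) (m' : Kind h × Fin 66 × Fin (2 ^ h)) =>
      Mx s (Sum.inr (Sum.inl p)) (Sum.inl m') ≠ B (Sum.inr (Sum.inl p)) (Sum.inl m')) id (fun m => m.2.2)
    intro p Y' hp
    obtain ⟨-, k, j, hne⟩ := Finset.mem_filter.mp hp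
    exact ⟨p, (k, j, Y'), rfl, rfl, fun hh => hne hh.symm⟩
  have i3 : (∑ X' : Fin (2 ^ h), (CS X').card) ≤
      ∑ m : Kind h × Fin 66 × Fin (2 ^ h), ∑ p : P h,
        if Mx s (Sum.inl m) (Sum.inr (Sum.inl p)) ≠ B (Sum.inl m) (Sum.inr (Sum.inl p)) then 1 else 0 := by
    have e : (∑ X' : Fin (2 ^ h), (CS X').card) = ∑ X' : Fin (2 ^ h), ∑ p : P h, if p ∈ CS X' then 1 else 0 :=
      Finset.sum_congr rfl fun Y' _ => card_eq_sum _
    rw [e]
    apply proj_le (fun X' p => p ∈ CS X') (fun (m : Kind h × Fin 66 × Fin (2 ^ h)) (p : P h) =>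
      Mx s (Sum.inl m) (Sum.inr (Sum.inl p)) ≠ B (Sum.inl m) (Sum.inr (Sum.inl p))) (fun m => m.2.2) id
    intro X' p hp
    obtain ⟨-, k, i, hne⟩ := Finset.mem_filter.mp hp
    exact ⟨(k, i, X'), p, rfl, rfl, fun hh => hne hh.symm⟩
  have i4 : (∑ r : P h, ∑ c : P h, if PhiB s B r c then 1 else 0) ≤
      ∑ r : P h, ∑ c : P h, if Mx s (Sum.inr (Sum.inl r)) (Sum.inr (Sum.inl c)) ≠
        B (Sum.inr (Sum.inl r)) (Sum.inr (Sum.inl c)) then 1 else 0 := by
    apply proj_le (PhiB s B) (fun r c : P h => Mx s (Sum.inr (Sum.inl r)) (Sum.inr (Sum.inl c)) ≠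
        B (Sum.inr (Sum.inl r)) (Sum.inr (Sum.inl c))) id id
    rintro r c ⟨h1, h2⟩
    refine ⟨r, c, rfl, rfl, ?_⟩
    intro hh
    have h1' : Mx s (Sum.inr (Sum.inl r)) (Sum.inr (Sum.inl c)) = true := h1
    have h2' : B (Sum.inr (Sum.inl r)) (Sum.inr (Sum.inl c)) = false := h2
    rw [h1', h2'] at hh
    exact absurd hh (by simp)
  simp only [Fintype.sum_sum_type (α₁ := Kind h × Fin 66 × Fin (2 ^ h)),
    Fintype.sum_sum_type (α₁ := P h), Finset.sum_add_distrib]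
  have hN : 0 < 2 ^ h * 2 ^ h := by positivity
  generalize (∑ X' : Fin (2 ^ h), ∑ Y' : Fin (2 ^ h), if MM X' Y' then 1 else 0) = a1 at *
  generalize (∑ Y' : Fin (2 ^ h), (RS Y').card) = a2 at *
  generalize (∑ X' : Fin (2 ^ h), (CS X').card) = a3 at *
  generalize (∑ r : P h, ∑ c : P h, if PhiB s B r c then 1 else 0) = a4 at *
  have hfin : 2 ^ h * 2 ^ h ≤ a1 + a2 + a3 + a4 := by
    apply Nat.le_of_mul_le_mul_left _ hN
    have gen : ∀ N : ℕ, N * (N * (N * N)) ≤ N * N * a1 + N * (N * a4) + (N * (N * a2) + N * (N * a3)) →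
        N * N * (N * N) ≤ N * N * (a1 + a2 + a3 + a4) := by
      intro N hN'
      nlinarith
    exact gen _ hsum
  omega

end Crest.Agent.H8.OM
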