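import Mathlib
import Crest.Prelude.Def_OrderedMatrix
import Crest.Agent.H8.OM8

set_option autoImplicit false

open Crest.CombinatoricsR.OrderedMatrix

namespace Crest.Agent.H8.OM

variable {h : ℕ}

theorem exists_equiv {α : Type} [Fintype α] {n : ℕ} (hcard : Fintype.card α = n) (ps : α → ℕ) :
    ∃ e : α ≃ Fin n, ∀ r r', ps r < ps r' → e r < e r' := by
  classical
  let e0 : α ≃ Fin n := Fintype.equivFinOfCardEq hcard
  let f : Fin n → ℕ := fun i => ps (e0.symm i)
  refine ⟨e0.trans (Tuple.sort f).symm, ?_⟩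
  intro r r' hr
  by_contra hcon
  rw [not_lt] at hcon
  have hm := Tuple.monotone_sort f hcon
  simp [f] at hm
  omega

theorem card_row (hh : 1 ≤ h) : Fintype.card (Row h) = (386 * h + 2) * 2 ^ h := by
  have h1 : Fintype.card (Row h) = (h * (2 * 2) + 1) * (66 * 2 ^ h) + ((h + 1) * 2 ^ h + (121 * h - 65) * 2 ^ h) := by
    simp only [Fintype.card_sum, Fintype.card_prod, Fintype.card_option, Fintype.card_fin, Fintype.card_bool]
  rw [h1]
  obtain ⟨m, hm⟩ : ∃ m, 121 * h = m + 65 := ⟨121 * h - 65, by omega⟩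
  have h2 : 121 * h - 65 = m := by omega
  rw [h2]
  have h3 : (h * (2 * 2) + 1) * (66 * 2 ^ h) + ((h + 1) * 2 ^ h + m * 2 ^ h) = (265 * h + 67 + m) * 2 ^ h := by ring
  rw [h3]
  congr 1
  omega

theorem final (hh : 1 ≤ h) : ∃ A : Fin ((386 * h + 2) * 2 ^ h) → Fin ((386 * h + 2) * 2 ^ h) → Bool,
    (∀ B : Fin ((386 * h + 2) * 2 ^ h) → Fin ((386 * h + 2) * 2 ^ h) → Bool,
      orderedCopyCount Hp B = 0 → 2 ^ h * 2 ^ h ≤
        (Finset.univ.filter (fun rc : Fin ((386 * h + 2) * 2 ^ h) × Fin ((386 * h + 2) * 2 ^ h) =>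
                A rc.1 rc.2 ≠ B rc.1 rc.2)).card) ∧
    orderedCopyCount Hp A ≤ 2 ^ h * (((386 * h + 2) * 2 ^ h) ^ 65 * ((386 * h + 2) * 2 ^ h) ^ 65) := by
  obtain ⟨e, he⟩ := exists_equiv (card_row hh) (pos (h := h))
  generalize (386 * h + 2) * 2 ^ h = n at *
  refine ⟨fun x y => Mx false (e.symm x) (e.symm y), ?_, ?_⟩
  · intro B hB
    have hn : NoCopy (fun r c => B (e r) (e c)) := by
      rintro ⟨f, g, hf, hg, hfg⟩
      unfold orderedCopyCount at hB
      rw [Fintype.card_eq_zero_iff] at hB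
      exact hB.false ⟨(fun i => e (f i), fun i => e (g i)), fun i j hij => he _ _ (hf i j hij),
        fun i j hij => he _ _ (hg i j hij), hfg⟩
    have := far (s := false) hh hn
    refine this.trans (le_of_eq ?_)
    rw [Finset.card_filter, Fintype.sum_prod_type, ← Equiv.sum_comp e]
    apply Finset.sum_congr rfl
    intro r _
    rw [← Equiv.sum_comp e]
    apply Finset.sum_congr rfl
    intro c _
    simp only [Equiv.symm_apply_apply]
  · unfold orderedCopyCount
    rw [Fintype.card_subtype]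
    let T : Fin (2 ^ h) × (Fin 65 → Fin n) × (Fin 65 → Fin n) → (Fin 66 → Fin n) × (Fin 66 → Fin n) :=
      fun z => (Fin.insertNth (63 : Fin 66) (e (Sum.inr (Sum.inl (Fin.last h, z.1)))) z.2.1,
        Fin.insertNth (63 : Fin 66) (e (Sum.inr (Sum.inl (Fin.last h, z.1)))) z.2.2)
    have hsub : (Finset.univ.filter fun rc : (Fin 66 → Fin n) × (Fin 66 → Fin n) =>
        StrictMono rc.1 ∧ StrictMono rc.2 ∧ ∀ i j : Fin 66, Mx false (e.symm (rc.1 i)) (e.symm (rc.2 j)) = Hp i j) ⊆
        Finset.univ.image T := by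
      intro rc hrc
      rw [Finset.mem_filter] at hrc
      obtain ⟨-, hf, hg, hfg⟩ := hrc
      have hm : ∀ (u : Fin 66 → Fin n), StrictMono u → ∀ i j, i < j → pos (e.symm (u i)) ≤ pos (e.symm (u j)) := by
        intro u hu i j hij
        by_contra hcon
        rw [not_le] at hcon
        have h1 := he _ _ hcon
        rw [Equiv.apply_symm_apply, Equiv.apply_symm_apply] at h1
        exact absurd (hu hij) (not_lt.mpr h1.le)
      obtain ⟨X, hX1, hX2⟩ := copy_core (s := false) (f := fun i => e.symm (rc.1 i)) (g := fun i => e.symm (rc.2 i))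
        ⟨hfg⟩ (hm _ hf) (hm _ hg)
      rw [Finset.mem_image]
      refine ⟨(X, Fin.removeNth 63 rc.1, Fin.removeNth 63 rc.2), Finset.mem_univ _, ?_⟩
      have e1 : e (Sum.inr (Sum.inl (Fin.last h, X))) = rc.1 63 := by
        rw [← hX1]; exact Equiv.apply_symm_apply _ _
      have e2 : e (Sum.inr (Sum.inl (Fin.last h, X))) = rc.2 63 := by
        rw [← hX2]; exact Equiv.apply_symm_apply _ _
      apply Prod.ext
      · show Fin.insertNth (63 : Fin 66) (e (Sum.inr (Sum.inl (Fin.last h, X)))) (Fin.removeNth 63 rc.1) = rc.1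
        rw [e1]
        exact Fin.insertNth_self_removeNth _ _
      · show Fin.insertNth (63 : Fin 66) (e (Sum.inr (Sum.inl (Fin.last h, X)))) (Fin.removeNth 63 rc.2) = rc.2
        rw [e2]
        exact Fin.insertNth_self_removeNth _ _
    refine (Finset.card_le_card hsub).trans (Finset.card_image_le.trans ?_)
    simp only [Finset.card_univ, Fintype.card_prod, Fintype.card_fin, Fintype.card_fun]
    exact le_refl _

end Crest.Agent.H8.OM
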